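import Crest.Agent.R330.IB0
import Crest.Agent.R330.IU

/-! # Row 330, BU/A (block owner helper22)
The cone cut-off `χ` and smoothness of the weight.
`exists_chi`: with `s = Real.smoothTransition`, `ρ² = ‖x‖²`, `n = ‖lc x‖² + ‖yc x‖²`, `q_p = ∑ i, α p (zc x i)²`
(`= M p ²`, a polynomial) put
`χ = s (4ρ² - 1) * s ((1.8 θ²ρ² - n) / (0.3 θ²)) * ∏ p, s ((κ² q_p - 0.3 ρ²) / 0.3)` (no division by `ρ`).
`tsupport χ ⊆ {1/4 ≤ ρ², n ≤ 1.8 θ²ρ², ∀ p, 0.3 ρ² ≤ κ² q_p}` (closed); near a point of `tube κ θ` with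
`ρ ≥ 1` all three arguments are `> 1` (open condition).  `contDiff_wtX`: `M p z ^ (2 m) = q_p ^ m`. -/

set_option autoImplicit false
set_option linter.unusedSectionVars false
set_option linter.unusedVariables false

noncomputable section

open MeasureTheory Filter Topology
open scoped InnerProductSpace ContDiff Matrix
open Crest.MathPhysics.MatrixQM (GammaNine)

namespace Crest.Agent.R330

variable {E Z L H F : Type}
  [NormedAddCommGroup E] [InnerProductSpace ℝ E] [FiniteDimensional ℝ E]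
  [NormedAddCommGroup Z] [InnerProductSpace ℝ Z] [FiniteDimensional ℝ Z]
  [NormedAddCommGroup L] [InnerProductSpace ℝ L] [FiniteDimensional ℝ L]
  [NormedAddCommGroup H] [InnerProductSpace ℝ H] [FiniteDimensional ℝ H]
  [NormedAddCommGroup F] [InnerProductSpace ℂ F] [FiniteDimensional ℂ F]
  [MeasurableSpace E] [BorelSpace E] [MeasurableSpace Z] [BorelSpace Z]
  [MeasurableSpace L] [BorelSpace L] [MeasurableSpace H] [BorelSpace H]
  {P : Type} [Fintype P] {𝔤 : Lie E} (D : Levi 𝔤 Z L H P) (C : Cl (Th E) F) (σ : Spn)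
  {K : Type} [Group K] [TopologicalSpace K] [IsTopologicalGroup K]
  [CompactSpace K] [MeasurableSpace K] [BorelSpace K] (Γ : Grp 𝔤 K)

namespace Levi

theorem bua_lin {V W : Type} [NormedAddCommGroup V] [NormedSpace ℝ V] [FiniteDimensional ℝ V]
    [NormedAddCommGroup W] [NormedSpace ℝ W] (f : V →ₗ[ℝ] W) : ContDiff ℝ ∞ f :=
  (LinearMap.toContinuousLinearMap f).contDiff

theorem bua_M_sq (p : P) (z : X Z) : D.M p z ^ 2 = ∑ i, D.α p (z i) ^ 2 :=
  Real.sq_sqrt (Finset.sum_nonneg fun _ _ => sq_nonneg _)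

theorem bu_tube_mono {κ κ' θ θ' : ℝ} (hκ : κ ≤ κ') (hθ : θ ≤ θ') : D.tube κ θ ⊆ D.tube κ' θ' :=
  fun x hx => ⟨fun p => (hx.1 p).trans (mul_le_mul_of_nonneg_right hκ (Real.sqrt_nonneg _)),
    hx.2.trans (mul_le_mul_of_nonneg_right hθ (norm_nonneg _))⟩

theorem tube_smul {κ θ r : ℝ} (hr : 0 < r) {x : X E} (hx : x ∈ D.tube κ θ) :
    r • x ∈ D.tube κ θ :=
by
  refine ⟨fun p => ?_, ?_⟩
  · rw [map_smul, D.M_smul, norm_smul, Real.norm_eq_abs, mul_left_comm]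
    exact mul_le_mul_of_nonneg_left (hx.1 p) (abs_nonneg _)
  · rw [map_smul, map_smul, norm_smul, norm_smul, norm_smul, ← mul_add, mul_left_comm]
    exact mul_le_mul_of_nonneg_left hx.2 (norm_nonneg _)

theorem bu_isClosed_tube (κ θ : ℝ) : IsClosed (D.tube κ θ) :=
by
  have hz := (bua_lin D.zc).continuous
  have hl := (bua_lin D.lc).continuous
  have hy := (bua_lin D.yc).continuous
  have e : D.tube κ θ = (⋂ p, {x | ‖x‖ ≤ κ * D.M p (D.zc x)}) ∩ {x | ‖D.lc x‖ + ‖D.yc x‖ ≤ θ * ‖x‖} := by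
    ext x; simp [tube]
  rw [e]
  exact (isClosed_iInter fun p => isClosed_le continuous_norm
    (continuous_const.mul ((D.continuous_M p).comp hz))).inter
    (isClosed_le (hl.norm.add hy.norm) (continuous_const.mul continuous_norm))

theorem tube_zc_ne {κ θ : ℝ} (hθ : θ ≤ 1 / 2) {x : X E} (hx : x ∈ D.tube κ θ) (h0 : x ≠ 0) :
    D.zc x ≠ 0 :=
by
  intro h
  have h1 := D.tube_norm_zc hx
  rw [h, norm_zero] at h1
  have := norm_pos_iff.2 h0
  nlinarith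

theorem bua_q (p : P) : ContDiff ℝ ∞ fun x : X E => D.M p (D.zc x) ^ 2 := by
  simp only [D.bua_M_sq]
  refine ContDiff.sum fun i _ => ContDiff.pow ?_ 2
  exact bua_lin ((D.α p) ∘ₗ (PiLp.projₗ 2 (𝕜 := ℝ) (fun _ : Fin 9 => Z) i) ∘ₗ D.zc)

theorem contDiff_wtX : ContDiff ℝ ∞ D.wtX :=
by
  refine (Real.smoothTransition.contDiff.comp (contDiff_const.sub
    (contDiff_const.mul (D.contDiff_PhiX.norm_sq ℝ)))).mul ?_
  simp only [jac, pow_mul]
  exact contDiff_prod fun p _ => (D.bua_q p).pow _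

theorem rotInv_wtX : RotInv D.wtX :=
  fun O hO x => by
    simp only [wtX, wt, jac, D.zc_mat, D.yc_mat, D.Phi_mat hO, D.M_mat hO]

theorem Phi_lt_of_wtX {x : X E} (h : D.wtX x ≠ 0) : ‖D.Phi (D.zc x) (D.yc x)‖ < 1 :=
by
  by_contra h1
  refine h (D.wt_eq_zero ?_)
  nlinarith [not_lt.1 h1]

/-- off `‖Φ‖ < 1` the weight vanishes identically near the point -/
theorem wtX_eventually {x : X E} (h : ¬ ‖D.Phi (D.zc x) (D.yc x)‖ < 1) :
    ∀ᶠ y in 𝓝 x, D.wtX y = 0 :=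
by
  have h1 : 1 / 2 < ‖D.Phi (D.zc x) (D.yc x)‖ ^ 2 := by nlinarith [not_lt.1 h]
  filter_upwards [(isOpen_lt continuous_const (D.contDiff_PhiX.continuous.norm.pow 2)).mem_nhds h1]
    with y hy using D.wt_eq_zero (le_of_lt hy)

theorem exists_chi {κ θ : ℝ} (hκ : 1 ≤ κ) (hθ : 0 < θ) : ∃ χ : X E → ℝ, ContDiff ℝ ∞ χ ∧
    (∀ x, 0 ≤ χ x) ∧ RotInv χ ∧ (∀ x ∈ tsupport χ, x ∈ D.tube (2 * κ) (2 * θ) ∧ x ≠ 0) ∧
    ∀ x ∈ D.tube κ θ, 1 ≤ ‖x‖ → ∀ᶠ y in 𝓝 x, χ y = 1 :=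
by
  set s := Real.smoothTransition
  have hs : ContDiff ℝ ∞ s := Real.smoothTransition.contDiff
  set a : X E → ℝ := fun x => 4 * ‖x‖ ^ 2 - 1 with ha
  set b : X E → ℝ := fun x =>
    (9 / 5 * θ ^ 2 * ‖x‖ ^ 2 - (‖D.lc x‖ ^ 2 + ‖D.yc x‖ ^ 2)) / (3 / 10 * θ ^ 2) with hb
  set c : P → X E → ℝ := fun p x => (κ ^ 2 * D.M p (D.zc x) ^ 2 - 3 / 10 * ‖x‖ ^ 2) / (3 / 10) with hc
  have hn : ContDiff ℝ ∞ fun x : X E => ‖x‖ ^ 2 := contDiff_norm_sq ℝ
  have ca : ContDiff ℝ ∞ a := (contDiff_const.mul hn).sub contDiff_const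
  have cb : ContDiff ℝ ∞ b := ((contDiff_const.mul hn).sub
    (((bua_lin D.lc).norm_sq ℝ).add ((bua_lin D.yc).norm_sq ℝ))).div_const _
  have cc : ∀ p, ContDiff ℝ ∞ (c p) := fun p =>
    ((contDiff_const.mul (D.bua_q p)).sub (contDiff_const.mul hn)).div_const _
  have t2 : 0 < 3 / 10 * θ ^ 2 := by positivity
  refine ⟨fun x => s (a x) * s (b x) * ∏ p, s (c p x),
    ((hs.comp ca).mul (hs.comp cb)).mul (contDiff_prod fun p _ => hs.comp (cc p)),
    fun x => mul_nonneg (mul_nonneg (Real.smoothTransition.nonneg _) (Real.smoothTransition.nonneg _))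
      (Finset.prod_nonneg fun _ _ => Real.smoothTransition.nonneg _), fun O hO x => ?_, ?_, ?_⟩
  · simp only [ha, hb, hc, D.zc_mat, D.lc_mat, D.yc_mat, D.M_mat hO, norm_mat_orth O hO]
  · have hcl : IsClosed ({x | 0 ≤ a x} ∩ {x | 0 ≤ b x} ∩ ⋂ p, {x | 0 ≤ c p x}) :=
      ((isClosed_le continuous_const ca.continuous).inter
        (isClosed_le continuous_const cb.continuous)).inter
        (isClosed_iInter fun p => isClosed_le continuous_const (cc p).continuous)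
    have hpos : ∀ t, s t ≠ 0 → 0 ≤ t := fun t ht => by
      by_contra h
      exact ht (Real.smoothTransition.zero_of_nonpos (not_le.1 h).le)
    have hsub := closure_minimal (s := Function.support fun x => s (a x) * s (b x) * ∏ p, s (c p x))
      (t := {x | 0 ≤ a x} ∩ {x | 0 ≤ b x} ∩ ⋂ p, {x | 0 ≤ c p x})
      (fun x hx => ⟨⟨hpos _ (left_ne_zero_of_mul (left_ne_zero_of_mul hx)),
        hpos _ (right_ne_zero_of_mul (left_ne_zero_of_mul hx))⟩,
        Set.mem_iInter.2 fun p => hpos _ (Finset.prod_ne_zero_iff.1 (right_ne_zero_of_mul hx) p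
          (Finset.mem_univ p))⟩) hcl
    intro x hx
    obtain ⟨⟨h1, h2⟩, h3⟩ := hsub hx
    have h1 : 0 ≤ 4 * ‖x‖ ^ 2 - 1 := h1
    have h2 : 0 ≤ 9 / 5 * θ ^ 2 * ‖x‖ ^ 2 - (‖D.lc x‖ ^ 2 + ‖D.yc x‖ ^ 2) :=
      (div_nonneg_iff.1 h2).elim (fun h => h.1) fun h => absurd h.2 (not_le.2 t2)
    refine ⟨⟨fun p => ?_, ?_⟩, fun h => ?_⟩
    · have h4 : 0 ≤ (κ ^ 2 * D.M p (D.zc x) ^ 2 - 3 / 10 * ‖x‖ ^ 2) / (3 / 10) := Set.mem_iInter.1 h3 p
      have h5 : 0 ≤ D.M p (D.zc x) := Real.sqrt_nonneg _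
      refine abs_le_of_sq_le_sq' ?_ (by positivity) |>.2
      nlinarith [sq_nonneg ‖x‖]
    · refine abs_le_of_sq_le_sq' ?_ (by positivity) |>.2
      nlinarith [sq_nonneg (‖D.lc x‖ - ‖D.yc x‖), sq_nonneg (θ * ‖x‖)]
    · rw [h, norm_zero] at h1
      norm_num at h1
  · intro x hx h1
    have n1 : 1 ≤ ‖x‖ ^ 2 := one_le_pow₀ h1
    have a1 : 1 < a x := by simp only [ha]; linarith
    have b1 : 1 < b x := by
      simp only [hb]
      rw [lt_div_iff₀ t2]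
      have h2 := pow_le_pow_left₀ (by positivity) hx.2 2
      have h3 : θ ^ 2 ≤ θ ^ 2 * ‖x‖ ^ 2 := le_mul_of_one_le_right (sq_nonneg _) n1
      nlinarith [mul_nonneg (norm_nonneg (D.lc x)) (norm_nonneg (D.yc x))]
    have c1 : ∀ p, 1 < c p x := fun p => by
      simp only [hc]
      rw [lt_div_iff₀ (by norm_num)]
      have h2 := pow_le_pow_left₀ (norm_nonneg _) (hx.1 p) 2
      nlinarith
    filter_upwards [(isOpen_lt continuous_const ca.continuous).mem_nhds a1,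
      (isOpen_lt continuous_const cb.continuous).mem_nhds b1,
      eventually_all.2 fun p => (isOpen_lt continuous_const (cc p).continuous).mem_nhds (c1 p)]
      with y y1 y2 y3
    rw [show s (a y) = 1 from Real.smoothTransition.one_of_one_le (le_of_lt y1),
      show s (b y) = 1 from Real.smoothTransition.one_of_one_le (le_of_lt y2),
      Finset.prod_eq_one fun p _ => show s (c p y) = 1 from
        Real.smoothTransition.one_of_one_le (le_of_lt (y3 p))]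
    norm_num

theorem fpw_of_chi {κ θ : ℝ} {χ : X E → ℝ} (h1 : ContDiff ℝ ∞ χ) (h2 : ∀ x, 0 ≤ χ x)
    (h3 : RotInv χ) (h4 : ∀ x ∈ tsupport χ, x ∈ D.tube (2 * κ) (2 * θ) ∧ x ≠ 0)
    (h5 : ∀ x ∈ D.tube κ θ, 1 ≤ ‖x‖ → ∀ᶠ y in 𝓝 x, χ y = 1) :
    D.FPW κ θ (fun x => D.wtX x * χ x) :=
  ⟨D.contDiff_wtX.mul h1, fun x => mul_nonneg (D.wt_nonneg _ _) (h2 x),
    fun O hO x => by simp only [D.rotInv_wtX O hO x, h3 O hO x],
    fun x hx => ⟨D.Phi_lt_of_wtX (left_ne_zero_of_mul hx),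
      (h4 x (subset_tsupport _ (right_ne_zero_of_mul hx))).1⟩,
    fun x hx h => by simp only [(h5 x hx h).self_of_nhds, mul_one]⟩

/-- `contDiff_of_support` with `K = tsupport χ`, `U = {x | zc x ≠ 0}` -/
theorem contDiff_pw {κ θ : ℝ} (hθ : θ ≤ 1 / 4) {χ : X E → ℝ} (h1 : ContDiff ℝ ∞ χ)
    (h4 : ∀ x ∈ tsupport χ, x ∈ D.tube (2 * κ) (2 * θ) ∧ x ≠ 0) {Ω₁ : ℝ} {wl : X Z × X L → ℝ}
    (hw : Adm Ω₁ wl) :
    ContDiff ℝ ∞ (fun x => D.wtX x * χ x * wl (D.zc x, D.lc x)) ∧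
      ∀ x, (∀ y, 0 ≤ χ y) → 0 ≤ D.wtX x * χ x * wl (D.zc x, D.lc x) :=
by
  have hz : ∀ x ∈ tsupport χ, D.zc x ≠ 0 := fun x hx =>
    D.tube_zc_ne (by linarith) (h4 x hx).1 (h4 x hx).2
  refine ⟨contDiff_of_support (K := tsupport χ) (U := {x | D.zc x ≠ 0}) (isClosed_tsupport _)
    (isOpen_ne_fun (bua_lin D.zc).continuous continuous_const) hz
    (fun x hx => by simp [image_eq_zero_of_notMem_tsupport hx])
    ((D.contDiff_wtX.mul h1).contDiffOn.mul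
      (hw.1.comp ((bua_lin D.zc).prodMk (bua_lin D.lc)).contDiffOn fun x hx => hx)), fun x h2 => ?_⟩
  by_cases hx : x ∈ tsupport χ
  · exact mul_nonneg (mul_nonneg (D.wt_nonneg _ _) (h2 x)) (hw.2 _ (hz x hx)).1.le
  · simp [image_eq_zero_of_notMem_tsupport hx]

theorem adm_one : Adm (Z := Z) (L := L) 0 (fun _ => 1) :=
  ⟨contDiffOn_const, fun q _ => ⟨one_pos, by rw [fderiv_fun_const, Pi.zero_apply, ContinuousLinearMap.opNorm_zero]; simp⟩⟩


end Levi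

end Crest.Agent.R330

end
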