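import Crest.Agent.R330.BU.A

/-! # Row 330, BU/B (block owner helper22)
The bracket of the Piola identity vanishes at central points `x = asm z 0 0`, `z ∈ reg`.
There `D⁻¹ = Minv z`, `dPhi x v = Phi z (yc v)`, `gH ξ x = iH (-adZ zᵢ ξ)`, so `zc τ = zc v`.
`∂_τ D ξ = dPhi τ (gH ξ x) + dPhi x (gH ξ τ)` and
`yc (gH ξ τ) i = -adZ (zc τ i) ξ - adL (lc τ i) ξ + iH† ⟦iH ξ, iH (yc τ i)⟧`, hence
`∂_τ D = 2 ∑ p, (∑ i, α p zᵢ α p (zc τ i)) pr p - ∑ i, adZ zᵢ ∘ adL (lc τ i) + ∑ i, adZ zᵢ ∘ T i`;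
traces: `trace_pr`, `trL`, and `pr p ∘ T i ∘ pr p = 0` (`hhh`; `I pr = pr I pr`, cyclicity of the trace).
Third term: Jacobi gives `gH e (gH η x) - gH η (gH e x) = ⟦⟦e, η⟧, x⟧ = gH c x` with `c = iH† ⟦iH e, iH η⟧`
(`span`, `brZZ`, `brZL`), so `D⁻¹ dPhi x (…) = c` and `⟪e, c⟫ = ⟪⟦e, e⟧, η⟫ = 0`. -/

set_option autoImplicit false
set_option linter.unusedSectionVars false
set_option linter.unusedVariables false

noncomputable section

open MeasureTheory Filter Topology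
open scoped InnerProductSpace ContDiff Matrix
open Crest.MathPhysics.MatrixQM (GammaNine)

namespace Crest.Agent.R330

variable {E Z L H F : Type}
  [NormedAddCommGroup E] [InnerProductSpace ℝ E] [FiniteDimensional ℝ E]
  [NormedAddCommGroup Z] [InnerProductSpace ℝ Z] [FiniteDimensional ℝ Z]
  [NormedAddCommGroup L] [InnerProductSpace ℝ L] [FiniteDimensional ℝ L]
  [NormedAddCommGroup H] [InnerProductSpace ℝ H] [FiniteDimensional ℝ H]
  [NormedAddCommGroup F] [InnerProductSpace ℂ F] [FiniteDimensional ℂ F]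
  [MeasurableSpace E] [BorelSpace E] [MeasurableSpace Z] [BorelSpace Z]
  [MeasurableSpace L] [BorelSpace L] [MeasurableSpace H] [BorelSpace H]
  {P : Type} [Fintype P] {𝔤 : Lie E} (D : Levi 𝔤 Z L H P) (C : Cl (Th E) F) (σ : Spn)
  {K : Type} [Group K] [TopologicalSpace K] [IsTopologicalGroup K]
  [CompactSpace K] [MeasurableSpace K] [BorelSpace K] (Γ : Grp 𝔤 K)

namespace Levi

/-- heavy gauge generators as a bilinear map -/
def buA : H →ₗ[ℝ] X E →ₗ[ℝ] X E where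
  toFun ξ := lift 9 (𝔤.br (D.iH ξ))
  map_add' a b := by ext x i; simp [lift]
  map_smul' r a := by ext x i; simp [lift]

theorem buA_apply (ξ : H) (x : X E) : D.buA ξ x = D.gH ξ x := rfl

theorem Dop_apply (x : X E) (ξ : H) : D.Dop x ξ = D.dPhi x (D.gH ξ x) := rfl

/-- `dPhi` is a symmetric bilinear map -/
theorem exists_dPhi_bilin : ∃ B : X E →ₗ[ℝ] X E →ₗ[ℝ] H, ∀ x v, B x v = D.dPhi x v :=
  ⟨D.ca_Phi.compl₁₂ D.zc D.yc + (D.ca_Phi.compl₁₂ D.zc D.yc).flip, fun _ _ => rfl⟩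

theorem fderiv_Dop (x τ : X E) (ξ : H) :
    fderiv ℝ D.Dop x τ ξ = D.dPhi τ (D.gH ξ x) + D.dPhi x (D.gH ξ τ) :=
by
  obtain ⟨B, hB⟩ := D.exists_dPhi_bilin
  have hD : HasFDerivAt D.Dop (fderiv ℝ D.Dop x) x :=
    (D.contDiff_Dop.differentiable (by simp) x).hasFDerivAt
  have h1 := hD.clm_apply (hasFDerivAt_const ξ x)
  have h2 := B.toContinuousBilinearMap.hasFDerivAt_of_bilinear (hasFDerivAt_id x)
    (LinearMap.toContinuousLinearMap (D.buA ξ)).hasFDerivAt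
  have e : (fun y => D.Dop y ξ) = fun y => B.toContinuousBilinearMap (id y)
      (LinearMap.toContinuousLinearMap (D.buA ξ) y) := by
    funext y
    exact (hB y _).symm
  rw [e] at h1
  have := congrArg (fun A => A τ) (h1.unique h2)
  simpa [hB, buA_apply, add_comm] using this

/-- the bracket -/
def Br (x v : X E) : ℝ :=
  (∑ p, 2 * (D.m p : ℝ) * (∑ i, D.α p (D.zc x i) * D.α p (D.zc (D.tau x v) i)) / D.M p (D.zc x) ^ 2) -
    LinearMap.trace ℝ H ((Ring.inverse (D.Dop x)).comp (fderiv ℝ D.Dop x (D.tau x v))).toLinearMap -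
    ∑ i, ⟪stdOrthonormalBasis ℝ H i, Ring.inverse (D.Dop x) (D.dPhi x
      (D.gH (stdOrthonormalBasis ℝ H i) (D.gH (D.eta x v) x) -
        D.gH (D.eta x v) (D.gH (stdOrthonormalBasis ℝ H i) x)))⟫_ℝ

theorem gH_central (z : X Z) (ξ : H) :
    D.gH ξ (D.asm z 0 0) = liftI 9 D.iH (WithLp.toLp 2 fun i => -D.adZ (z i) ξ) :=
  D.ca_gZ ξ z

theorem inverse_Dop_central {z : X Z} (hz : z ∈ D.reg) :
    IsUnit (D.Dop (D.asm z 0 0)) ∧
      Ring.inverse (D.Dop (D.asm z 0 0)) = LinearMap.toContinuousLinearMap (D.Minv z) :=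
by
  have e1 : D.Dop (D.asm z 0 0) * LinearMap.toContinuousLinearMap (D.Minv z) = 1 := by
    ext t
    show D.Dop (D.asm z 0 0) (D.Minv z t) = t
    rw [Dop_central]
    simp only [Minv, LinearMap.sum_apply, LinearMap.smul_apply]
    exact D.cb_diag _ _ (fun p => mul_inv_cancel₀ (pow_pos (hz p) 2).ne') t
  have e2 : LinearMap.toContinuousLinearMap (D.Minv z) * D.Dop (D.asm z 0 0) = 1 := by
    ext t
    show D.Minv z (D.Dop (D.asm z 0 0) t) = t
    rw [Dop_central]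
    simp only [Minv, LinearMap.sum_apply, LinearMap.smul_apply]
    exact D.cb_diag _ _ (fun p => inv_mul_cancel₀ (pow_pos (hz p) 2).ne') t
  exact ⟨⟨⟨_, _, e1, e2⟩, rfl⟩, Ring.inverse_unit ⟨_, _, e1, e2⟩⟩

theorem bubb_adj_H (c : H) : LinearMap.adjoint D.iH.toLinearMap (D.iH c) = c := by
  apply ext_inner_left ℝ
  intro u
  rw [LinearMap.adjoint_inner_right]
  exact D.iH.inner_map_map u c

/-- `ξ ↦ iH† ⟦iH ξ, iH y⟧` -/
def bubbT (y : H) : H →ₗ[ℝ] H :=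
  LinearMap.adjoint D.iH.toLinearMap ∘ₗ (𝔤.br.flip (D.iH y)) ∘ₗ D.iH.toLinearMap

theorem bubb_yc_gH (ξ : H) (τ : X E) (i : Fin 9) :
    D.yc (D.gH ξ τ) i = -D.adZ (D.zc τ i) ξ - D.adL (D.lc τ i) ξ + D.bubbT (D.yc τ i) ξ := by
  have e : τ i = D.iZ (D.zc τ i) + D.iL (D.lc τ i) + D.iH (D.yc τ i) := by
    conv_lhs => rw [← D.asm_eq τ]
    rfl
  have e1 : 𝔤.br (D.iH ξ) (D.iZ (D.zc τ i)) = D.iH (-D.adZ (D.zc τ i) ξ) := by
    rw [𝔤.anti, D.brZH, map_neg]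
    simp [adZ]
  have e2 : 𝔤.br (D.iH ξ) (D.iL (D.lc τ i)) = D.iH (-D.adL (D.lc τ i) ξ) := by
    rw [𝔤.anti, D.brLH, map_neg]
  show LinearMap.adjoint D.iH.toLinearMap (𝔤.br (D.iH ξ) (τ i)) = _
  rw [e, (𝔤.br (D.iH ξ)).map_add, (𝔤.br (D.iH ξ)).map_add, e1, e2, map_add, map_add, bubb_adj_H,
    bubb_adj_H, sub_eq_add_neg]
  rfl

theorem bubb_pr_T (p : P) (y v : H) : D.pr p (D.bubbT y (D.pr p v)) = 0 := by
  apply ext_inner_left ℝ
  intro u
  rw [← D.pr_sym, inner_zero_right]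
  show ⟪D.pr p u, LinearMap.adjoint D.iH.toLinearMap (𝔤.br (D.iH (D.pr p v)) (D.iH y))⟫_ℝ = 0
  rw [LinearMap.adjoint_inner_right]
  exact D.hhh p u v y

theorem bubb_pr_sum (p : P) (c : P → ℝ) (f : H →ₗ[ℝ] H) (hf : ∀ q v, f (D.pr q v) = D.pr q (f v))
    (v : H) : D.pr p (∑ q, c q • f (D.pr q v)) = c p • f (D.pr p v) := by
  classical
  rw [map_sum, Finset.sum_eq_single p]
  · rw [map_smul, hf, D.pr_idem]
  · intro q _ hq
    rw [map_smul, hf, D.pr_orth p q hq.symm, smul_zero]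
  · simp

theorem bubb_pr_adZ (p : P) (a : Z) (v : H) : D.pr p (D.adZ a v) = D.α p a • D.I (D.pr p v) := by
  have := D.bubb_pr_sum p (fun q => D.α q a) D.I D.I_pr v
  simpa [adZ] using this

theorem bubb_Minv_adZ (z : X Z) (a : Z) (T : H →ₗ[ℝ] H) : (D.Minv z ∘ₗ D.adZ a) ∘ₗ T =
    ∑ p, ((D.M p z ^ 2)⁻¹ * D.α p a) • (D.I ∘ₗ D.pr p ∘ₗ T) := by
  ext v
  simp only [Minv, LinearMap.comp_apply, LinearMap.sum_apply, LinearMap.smul_apply, bubb_pr_adZ,
    smul_smul]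

theorem bubb_tr_ZZ (p : P) (a : Z) :
    LinearMap.trace ℝ H (D.I ∘ₗ D.pr p ∘ₗ D.adZ a) = -(D.α p a * D.m p) := by
  have : D.I ∘ₗ D.pr p ∘ₗ D.adZ a = (-D.α p a) • D.pr p := by
    ext v
    simp only [LinearMap.comp_apply, bubb_pr_adZ, map_smul, D.I_cx.2, LinearMap.smul_apply]
    simp
  rw [this, map_smul, D.trace_pr]
  simp

theorem bubb_tr_T (p : P) (y : H) : LinearMap.trace ℝ H (D.I ∘ₗ D.pr p ∘ₗ D.bubbT y) = 0 := by
  have e1 : D.I ∘ₗ D.pr p ∘ₗ D.bubbT y = D.pr p ∘ₗ (D.I ∘ₗ D.pr p ∘ₗ D.bubbT y) := by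
    ext v
    simp only [LinearMap.comp_apply]
    rw [← D.I_pr, D.pr_idem]
  have e2 : (D.I ∘ₗ D.pr p ∘ₗ D.bubbT y) ∘ₗ D.pr p = 0 := by
    ext v
    simp only [LinearMap.comp_apply, bubb_pr_T, map_zero, LinearMap.zero_apply]
  rw [e1, LinearMap.trace_comp_comm', e2, map_zero]

theorem bubb_comm (a b : Z) (v : H) : D.adZ a (D.adZ b v) = D.adZ b (D.adZ a v) := by
  rw [← D.pr_sum (D.adZ a (D.adZ b v)), ← D.pr_sum (D.adZ b (D.adZ a v))]
  refine Finset.sum_congr rfl fun p _ => ?_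
  simp only [bubb_pr_adZ, map_smul, smul_smul, mul_comm]

theorem trace_central {z : X Z} (hz : z ∈ D.reg) (τ : X E) :
    LinearMap.trace ℝ H ((Ring.inverse (D.Dop (D.asm z 0 0))).comp
      (fderiv ℝ D.Dop (D.asm z 0 0) τ)).toLinearMap =
      ∑ p, 2 * (D.m p : ℝ) * (∑ i, D.α p (z i) * D.α p (D.zc τ i)) / D.M p z ^ 2 :=
by
  have e : ((Ring.inverse (D.Dop (D.asm z 0 0))).comp
      (fderiv ℝ D.Dop (D.asm z 0 0) τ)).toLinearMap =
      ∑ i, (D.Minv z ∘ₗ D.adZ (z i)) ∘ₗ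
        ((-2 : ℝ) • D.adZ (D.zc τ i) - D.adL (D.lc τ i) + D.bubbT (D.yc τ i)) := by
    ext ξ
    rw [(D.inverse_Dop_central hz).2]
    show D.Minv z (fderiv ℝ D.Dop (D.asm z 0 0) τ ξ) = _
    rw [fderiv_Dop]
    simp only [LinearMap.comp_apply, LinearMap.sum_apply]
    rw [← map_sum (D.Minv z)]
    refine congrArg (D.Minv z) ?_
    simp only [dPhi, Phi, zc_asm, yc_asm, bubb_yc_gH, lc_asm, PiLp.zero_apply, map_zero,
      Finset.sum_const_zero, add_zero, LinearMap.zero_apply, sub_zero]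
    have z0 : ∀ i, D.zc (D.gH ξ (D.asm z 0 0)) i = 0 := fun i => by
      rw [D.gH_central]
      have := D.zc_asm 0 0 (WithLp.toLp 2 fun i => -D.adZ (z i) ξ)
      simp only [asm, map_zero, zero_add] at this
      rw [this]; rfl
    have t0 : D.bubbT 0 = 0 := by simp [bubbT]
    have a0 : D.adZ 0 = 0 := by simp [adZ]
    simp only [z0, t0, a0, LinearMap.zero_apply, add_zero, Finset.sum_const_zero,
      ← Finset.sum_add_distrib]
    refine Finset.sum_congr rfl fun i _ => ?_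
    simp only [map_add, map_sub, map_neg, LinearMap.add_apply, LinearMap.sub_apply,
      LinearMap.smul_apply, map_smul, D.bubb_comm (D.zc τ i) (z i)]
    module
  rw [e, map_sum]
  simp only [bubb_Minv_adZ]
  simp only [LinearMap.comp_add, LinearMap.comp_sub, LinearMap.comp_smul, map_sum, map_smul, map_add, map_sub,
    D.trL, bubb_tr_T, bubb_tr_ZZ, smul_eq_mul]
  simp only [mul_zero, Finset.sum_const_zero, sub_zero, add_zero, Finset.mul_sum]
  rw [Finset.sum_comm]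
  refine Finset.sum_congr rfl fun p _ => ?_
  rw [Finset.sum_div]
  refine Finset.sum_congr rfl fun i _ => ?_
  ring

theorem third_central {z : X Z} (hz : z ∈ D.reg) (e η : H) :
    ⟪e, Ring.inverse (D.Dop (D.asm z 0 0)) (D.dPhi (D.asm z 0 0)
      (D.gH e (D.gH η (D.asm z 0 0)) - D.gH η (D.gH e (D.asm z 0 0))))⟫_ℝ = 0 :=
by
  obtain ⟨a, b, c, h⟩ := D.span (𝔤.br (D.iH e) (D.iH η))
  have e1 : D.gH e (D.gH η (D.asm z 0 0)) - D.gH η (D.gH e (D.asm z 0 0)) = D.gH c (D.asm z 0 0) := by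
    rw [← D.ca_Z]
    ext i
    show 𝔤.br (D.iH e) (𝔤.br (D.iH η) (D.iZ (z i))) - 𝔤.br (D.iH η) (𝔤.br (D.iH e) (D.iZ (z i))) =
      𝔤.br (D.iH c) (D.iZ (z i))
    rw [𝔤.jac, add_sub_cancel_right, h, map_add, map_add, LinearMap.add_apply, LinearMap.add_apply,
      D.brZZ, 𝔤.anti (D.iL b), D.brZL, neg_zero, zero_add, zero_add]
  have e2 : Ring.inverse (D.Dop (D.asm z 0 0)) (D.Dop (D.asm z 0 0) c) = c := by
    rw [← ContinuousLinearMap.mul_apply, Ring.inverse_mul_cancel _ (D.inverse_Dop_central hz).1]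
    rfl
  have e3 : 𝔤.br (D.iH e) (D.iH e) = 0 := by
    have := 𝔤.anti (D.iH e) (D.iH e)
    have h2 : (2 : ℝ) • 𝔤.br (D.iH e) (D.iH e) = 0 := by
      rw [two_smul]; nth_rw 1 [this]; simp
    simpa using h2
  have e4 := 𝔤.inv (D.iH e) (D.iH e) (D.iH η)
  rw [e3, h, inner_zero_left, inner_add_right, inner_add_right, real_inner_comm, D.oZH,
    real_inner_comm, D.oLH, D.iH.inner_map_map] at e4
  rw [e1, ← Dop_apply, e2]
  linarith

theorem Br_central {z : X Z} (hz : z ∈ D.reg) (v : X E) : D.Br (D.asm z 0 0) v = 0 := by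
  unfold Br
  rw [D.trace_central hz, Finset.sum_eq_zero fun i _ => D.third_central hz _ _, D.zc_asm]
  ring


end Levi

end Crest.Agent.R330

end
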