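import Crest.Agent.R330.BU.B

/-! # Row 330, BU/C (block owner helper22)
Smallness of the bracket in a thin tube: homogeneity, continuity and compactness.
`Br_bound`: take `θ₁` from `tube_bounds`; `S = {x ∈ tube κ θ₁, ‖x‖ = 1} ×ˢ sphere 0 1` is compact and lies in
the domain of continuity; on the compact set `S ∩ {η ≤ |Br|}` the continuous function `‖lc x‖ + ‖yc x‖` is
positive (`asm_eq`, `Br_central`), hence `≥ 2 θ₂ > 0` (`IsCompact.exists_isMinOn`, or empty set);
`θ₀ = min θ₁ θ₂`; rescale `x` and `v`.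
`tau_light`: `zc (gH η x) = zc (gH η (iH (yc x)))` and the same for `lc` (`brZH`, `brLH`, `𝔤.anti`), of
size `B ‖η‖ ‖yc x‖ ≤ 2 B³ θ ‖v‖` by `tube_bounds`. -/

set_option autoImplicit false
set_option linter.unusedSectionVars false
set_option linter.unusedVariables false

noncomputable section

open MeasureTheory Filter Topology
open scoped InnerProductSpace ContDiff Matrix
open Crest.MathPhysics.MatrixQM (GammaNine)

namespace Crest.Agent.R330

variable {E Z L H F : Type}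
  [NormedAddCommGroup E] [InnerProductSpace ℝ E] [FiniteDimensional ℝ E]
  [NormedAddCommGroup Z] [InnerProductSpace ℝ Z] [FiniteDimensional ℝ Z]
  [NormedAddCommGroup L] [InnerProductSpace ℝ L] [FiniteDimensional ℝ L]
  [NormedAddCommGroup H] [InnerProductSpace ℝ H] [FiniteDimensional ℝ H]
  [NormedAddCommGroup F] [InnerProductSpace ℂ F] [FiniteDimensional ℂ F]
  [MeasurableSpace E] [BorelSpace E] [MeasurableSpace Z] [BorelSpace Z]
  [MeasurableSpace L] [BorelSpace L] [MeasurableSpace H] [BorelSpace H]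
  {P : Type} [Fintype P] {𝔤 : Lie E} (D : Levi 𝔤 Z L H P) (C : Cl (Th E) F) (σ : Spn)
  {K : Type} [Group K] [TopologicalSpace K] [IsTopologicalGroup K]
  [CompactSpace K] [MeasurableSpace K] [BorelSpace K] (Γ : Grp 𝔤 K)

namespace Levi

theorem buca_dPhi_left (r : ℝ) (x v : X E) : D.dPhi (r • x) v = r • D.dPhi x v := by
  obtain ⟨B, hB⟩ := D.exists_dPhi_bilin
  rw [← hB, ← hB, map_smul, LinearMap.smul_apply]

theorem buca_dPhi_right (r : ℝ) (x v : X E) : D.dPhi x (r • v) = r • D.dPhi x v := by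
  obtain ⟨B, hB⟩ := D.exists_dPhi_bilin
  rw [← hB, ← hB, map_smul]

theorem buca_gH_left (r : ℝ) (ξ : H) (x : X E) : D.gH (r • ξ) x = r • D.gH ξ x := by
  rw [← buA_apply, ← buA_apply, map_smul, LinearMap.smul_apply]

theorem buca_gH_right (r : ℝ) (ξ : H) (x : X E) : D.gH ξ (r • x) = r • D.gH ξ x := by
  rw [← buA_apply, ← buA_apply, map_smul]

theorem eta_smul_left {r : ℝ} (hr : 0 < r) {x : X E} (hD : IsUnit (D.Dop x)) (v : X E) :
    Ring.inverse (D.Dop (r • x)) = (r ^ 2)⁻¹ • Ring.inverse (D.Dop x) ∧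
      D.eta (r • x) v = r⁻¹ • D.eta x v ∧ D.tau (r • x) v = D.tau x v :=
by
  have r2 : r ^ 2 ≠ 0 := by positivity
  have e1 : Ring.inverse (D.Dop (r • x)) = (r ^ 2)⁻¹ • Ring.inverse (D.Dop x) := by
    rw [D.Dop_smul]
    have a : (r ^ 2 • D.Dop x) * ((r ^ 2)⁻¹ • Ring.inverse (D.Dop x)) = 1 := by
      rw [smul_mul_smul_comm, mul_inv_cancel₀ r2, Ring.mul_inverse_cancel _ hD, one_smul]
    have b : ((r ^ 2)⁻¹ • Ring.inverse (D.Dop x)) * (r ^ 2 • D.Dop x) = 1 := by
      rw [smul_mul_smul_comm, inv_mul_cancel₀ r2, Ring.inverse_mul_cancel _ hD, one_smul]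
    exact Ring.inverse_unit ⟨_, _, a, b⟩
  have e2 : D.eta (r • x) v = r⁻¹ • D.eta x v := by
    unfold eta
    rw [e1, buca_dPhi_left, map_smul, smul_apply, smul_smul]
    congr 1
    field_simp
  refine ⟨e1, e2, ?_⟩
  unfold tau
  rw [e2, buca_gH_left, buca_gH_right, smul_smul, inv_mul_cancel₀ hr.ne', one_smul]

theorem Br_smul_left {r : ℝ} (hr : 0 < r) {x : X E} (hD : IsUnit (D.Dop x)) (v : X E) :
    D.Br (r • x) v = r⁻¹ * D.Br x v :=
by
  obtain ⟨e1, e2, e3⟩ := D.eta_smul_left hr hD v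
  have e4 : fderiv ℝ D.Dop (r • x) (D.tau x v) = r • fderiv ℝ D.Dop x (D.tau x v) := by
    ext ξ
    rw [fderiv_Dop, smul_apply, fderiv_Dop, buca_gH_right, buca_dPhi_right, buca_dPhi_left, smul_add]
  unfold Br
  rw [e1, e2, e3, e4, mul_sub, mul_sub, Finset.mul_sum, Finset.mul_sum]
  congr 1
  congr 1
  · refine Finset.sum_congr rfl fun p _ => ?_
    rw [map_smul, D.M_smul, abs_of_pos hr]
    simp only [PiLp.smul_apply, map_smul, smul_eq_mul, mul_assoc, ← Finset.mul_sum]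
    by_cases h : D.M p (D.zc x) = 0
    · simp [h]
    · field_simp
  · rw [ContinuousLinearMap.smul_comp, ContinuousLinearMap.comp_smul, smul_smul,
      ContinuousLinearMap.toLinearMap_smul, map_smul, smul_eq_mul]
    congr 1
    field_simp
  · refine Finset.sum_congr rfl fun i _ => ?_
    simp only [buca_gH_left, buca_gH_right, smul_smul, mul_inv_cancel₀ hr.ne',
      one_smul, buca_dPhi_left, map_smul, smul_apply, inner_smul_right]
    congr 1
    field_simp

theorem Br_smul_right (s : ℝ) (x v : X E) : D.Br x (s • v) = s * D.Br x v :=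
by
  have e2 : D.eta x (s • v) = s • D.eta x v := by
    unfold eta
    rw [buca_dPhi_right, map_smul]
  have e3 : D.tau x (s • v) = s • D.tau x v := by
    unfold tau
    rw [e2, buca_gH_left, smul_sub]
  unfold Br
  rw [e2, e3, mul_sub, mul_sub, Finset.mul_sum, Finset.mul_sum]
  congr 1
  congr 1
  · refine Finset.sum_congr rfl fun p _ => ?_
    simp only [PiLp.smul_apply, map_smul, smul_eq_mul, mul_left_comm _ s, ← Finset.mul_sum]
    ring
  · rw [map_smul, ContinuousLinearMap.comp_smul, ContinuousLinearMap.toLinearMap_smul, map_smul, smul_eq_mul]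
  · refine Finset.sum_congr rfl fun i _ => ?_
    simp only [buca_gH_left, buca_gH_right, ← smul_sub, buca_dPhi_right, map_smul, inner_smul_right]

theorem isOpen_unit : IsOpen {x : X E | IsUnit (D.Dop x)} :=
  Units.isOpen.preimage D.contDiff_Dop.continuous

theorem buca_inv : ContDiffOn ℝ ∞ (fun x => Ring.inverse (D.Dop x)) {x | IsUnit (D.Dop x)} := by
  intro x hx
  obtain ⟨u, hu⟩ := hx
  have := contDiffAt_ringInverse ℝ (n := ∞) u
  rw [hu] at this
  exact (this.comp x D.contDiff_Dop.contDiffAt).contDiffWithinAt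

theorem buca_dPhi : ContDiff ℝ ∞ fun q : X E × X E => D.dPhi q.1 q.2 := by
  obtain ⟨B, hB⟩ := D.exists_dPhi_bilin
  simp only [← hB]
  exact B.toContinuousBilinearMap.isBoundedBilinearMap.contDiff

theorem buca_gH : Continuous fun q : H × X E => D.gH q.1 q.2 :=
  D.buA.toContinuousBilinearMap.continuous₂

/-- `contDiffAt_ring_inverse` -/
theorem contDiffOn_eta : ContDiffOn ℝ ∞ (fun q : X E × X E => D.eta q.1 q.2)
    ({x | IsUnit (D.Dop x)} ×ˢ Set.univ) :=
  (D.buca_inv.comp contDiff_fst.contDiffOn fun q hq => hq.1).clm_apply D.buca_dPhi.contDiffOn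

theorem continuousOn_Br : ContinuousOn (fun q : X E × X E => D.Br q.1 q.2)
    ({x | D.zc x ∈ D.reg ∧ IsUnit (D.Dop x)} ×ˢ Set.univ) :=
by
  set S : Set (X E × X E) := {x | D.zc x ∈ D.reg ∧ IsUnit (D.Dop x)} ×ˢ Set.univ with hS
  have cη : ContinuousOn (fun q : X E × X E => D.eta q.1 q.2) S :=
    D.contDiffOn_eta.continuousOn.mono fun q hq => ⟨hq.1.2, trivial⟩
  have cg : ∀ {f : X E × X E → H} {g : X E × X E → X E}, ContinuousOn f S → ContinuousOn g S →
      ContinuousOn (fun q => D.gH (f q) (g q)) S := fun hf hg =>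
    D.buca_gH.comp_continuousOn (hf.prodMk hg)
  have cτ : ContinuousOn (fun q : X E × X E => D.tau q.1 q.2) S :=
    continuousOn_snd.sub (cg cη continuousOn_fst)
  have ci : ContinuousOn (fun q : X E × X E => Ring.inverse (D.Dop q.1)) S :=
    D.buca_inv.continuousOn.comp continuousOn_fst fun q hq => hq.1.2
  have cz : Continuous D.zc := D.zc.continuous_of_finiteDimensional
  have ca : ∀ p i, Continuous fun x : X E => D.α p (D.zc x i) := fun p i =>
    (D.α p).continuous_of_finiteDimensional.comp ((PiLp.continuous_apply 2 _ i).comp cz)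
  refine (ContinuousOn.sub (continuousOn_finsetSum _ fun p _ => ?_) ?_).sub
    (continuousOn_finsetSum _ fun i _ => ?_)
  · refine ContinuousOn.div (continuousOn_const.mul (continuousOn_finsetSum _ fun i _ =>
      ((ca p i).comp continuous_fst).continuousOn.mul ((ca p i).comp_continuousOn cτ)))
      ((((D.continuous_M p).comp cz).comp continuous_fst).pow 2).continuousOn fun q hq => ?_
    exact pow_ne_zero 2 (hq.1.1 p).ne'
  · have ct : Continuous fun A : H →L[ℝ] H => LinearMap.trace ℝ H A.toLinearMap :=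
      (LinearMap.trace ℝ H ∘ₗ ContinuousLinearMap.coeLM ℝ).continuous_of_finiteDimensional
    have cf : Continuous fun x => fderiv ℝ D.Dop x := D.contDiff_Dop.continuous_fderiv (by simp)
    exact ct.comp_continuousOn
      (ci.clm_comp ((cf.comp continuous_fst).continuousOn.clm_apply cτ))
  · refine continuousOn_const.inner (ci.clm_apply ?_)
    exact D.buca_dPhi.continuous.comp_continuousOn (continuousOn_fst.prodMk
      ((cg continuousOn_const (cg cη continuousOn_fst)).sub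
        (cg cη (cg continuousOn_const continuousOn_fst))))

theorem Br_bound {κ η : ℝ} (hκ : 1 ≤ κ) (hη : 0 < η) : ∃ θ₀ : ℝ, 0 < θ₀ ∧
    ∀ x ∈ D.tube κ θ₀, x ≠ 0 → ∀ v, |D.Br x v| ≤ η / ‖x‖ * ‖v‖ :=
by
  obtain ⟨θ₁, B, t1, t1', hB, hT⟩ := D.tube_bounds hκ
  set S : Set (X E × X E) := (D.tube κ θ₁ ∩ Metric.sphere 0 1) ×ˢ Metric.sphere 0 1 with hS
  have cS : IsCompact S :=
    ((isCompact_sphere _ _).inter_left (D.bu_isClosed_tube κ θ₁)).prod (isCompact_sphere _ _)
  have ne : ∀ x : X E, x ∈ Metric.sphere (0 : X E) 1 → x ≠ 0 := fun x hx h => by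
    rw [h] at hx; simp at hx
  have hc : ContinuousOn (fun q : X E × X E => |D.Br q.1 q.2|) S :=
    (D.continuousOn_Br.mono fun q hq => by
      have := hT θ₁ t1.le le_rfl q.1 hq.1.1 (ne _ hq.1.2)
      exact ⟨⟨this.1, this.2.1⟩, trivial⟩).abs
  have cS' : IsCompact (S ∩ (fun q : X E × X E => |D.Br q.1 q.2|) ⁻¹' Set.Ici η) :=
    cS.of_isClosed_subset (hc.preimage_isClosed_of_isClosed cS.isClosed isClosed_Ici)
      Set.inter_subset_left
  have cn : Continuous fun q : X E × X E => ‖D.lc q.1‖ + ‖D.yc q.1‖ :=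
    ((D.lc.continuous_of_finiteDimensional.comp continuous_fst).norm).add
      ((D.yc.continuous_of_finiteDimensional.comp continuous_fst).norm)
  obtain ⟨m, m0, hm⟩ := cS'.exists_forall_le' cn.continuousOn (a := 0) (by
    rintro q ⟨hq, hq'⟩
    by_contra hn
    have a1 : D.lc q.1 = 0 := norm_eq_zero.mp (by linarith [norm_nonneg (D.lc q.1), norm_nonneg (D.yc q.1)])
    have a2 : D.yc q.1 = 0 := norm_eq_zero.mp (by linarith [norm_nonneg (D.lc q.1), norm_nonneg (D.yc q.1)])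
    have a3 := D.asm_eq q.1
    rw [a1, a2] at a3
    have a4 := D.Br_central (hT θ₁ t1.le le_rfl q.1 hq.1.1 (ne _ hq.1.2)).1 q.2
    rw [a3] at a4
    simp only [Set.mem_preimage, Set.mem_Ici, a4, abs_zero] at hq'
    linarith)
  refine ⟨min θ₁ (m / 2), lt_min t1 (by linarith), fun x hx x0 v => ?_⟩
  have xp : 0 < ‖x‖ := norm_pos_iff.mpr x0
  by_cases v0 : v = 0
  · have := D.Br_smul_right 0 x v
    rw [zero_smul, zero_mul] at this
    rw [v0, this]; simp
  have vp : 0 < ‖v‖ := norm_pos_iff.mpr v0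
  have n1 : ‖‖x‖⁻¹ • x‖ = 1 := norm_smul_inv_norm x0
  have n2 : ‖‖v‖⁻¹ • v‖ = 1 := norm_smul_inv_norm v0
  have h1 := D.tube_smul (inv_pos.mpr xp) hx
  have k : |D.Br (‖x‖⁻¹ • x) (‖v‖⁻¹ • v)| ≤ η := by
    by_contra hn
    have := hm (‖x‖⁻¹ • x, ‖v‖⁻¹ • v) ⟨⟨⟨D.bu_tube_mono le_rfl (min_le_left _ _) h1, by simpa using n1⟩,
      by simpa using n2⟩, (not_le.mp hn).le⟩
    have b := h1.2
    rw [n1] at b
    linarith [min_le_right θ₁ (m / 2)]
  rw [D.Br_smul_right, D.Br_smul_left (inv_pos.mpr xp)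
    (hT θ₁ t1.le le_rfl x (D.bu_tube_mono le_rfl (min_le_left _ _) hx) x0).2.1, inv_inv, abs_mul, abs_mul,
    abs_of_pos xp, abs_of_pos (inv_pos.mpr vp), inv_mul_le_iff₀ vp] at k
  rw [div_mul_eq_mul_div, le_div_iff₀ xp]
  linarith

theorem bucb_split (ξ : H) (x : X E) : ∃ h : X H,
    D.gH ξ x = liftI 9 D.iH h + D.gH ξ (liftI 9 D.iH (D.yc x)) := by
  have e : x = D.asm (D.zc x) 0 0 + liftI 9 D.iL (D.lc x) + liftI 9 D.iH (D.yc x) := by
    conv_lhs => rw [← D.asm_eq x]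
    simp [asm]
  refine ⟨(WithLp.toLp 2 fun i => -D.adZ (D.zc x i) ξ) + WithLp.toLp 2 fun i => -D.adL (D.lc x i) ξ, ?_⟩
  conv_lhs => rw [e]
  rw [← buA_apply, map_add, map_add, buA_apply, buA_apply, buA_apply, D.gH_central, D.gH_light, map_add]

theorem tau_light {κ : ℝ} (hκ : 1 ≤ κ) : ∃ θ₀ : ℝ, 0 < θ₀ ∧
    ∀ x ∈ D.tube κ θ₀, x ≠ 0 → ∀ v, ‖(D.zc (D.tau x v), D.lc (D.tau x v))‖ ≤ 2 * ‖v‖ :=
by
  obtain ⟨θ₁, B, t1, t1', hB, hT⟩ := D.tube_bounds hκ
  refine ⟨min θ₁ (1 / (2 * B ^ 3)), lt_min t1 (by positivity), fun x hx x0 v => ?_⟩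
  obtain ⟨-, -, -, b1, -, -, -, b2, -, -, b3⟩ :=
    hT θ₁ t1.le le_rfl x (D.bu_tube_mono le_rfl (min_le_left _ _) hx) x0
  have xp : 0 < ‖x‖ := norm_pos_iff.mpr x0
  have e1 : ‖D.eta x v‖ ≤ 2 * B ^ 2 * ‖v‖ / ‖x‖ := by
    have a1 : ‖D.dPhi x v‖ ≤ B * (‖x‖ * ‖v‖ + ‖x‖ * ‖v‖) := (b2 v).trans (by
      gcongr
      exacts [D.norm_yc_le v, D.norm_yc_le x, D.norm_zc_le v])
    refine (ContinuousLinearMap.le_opNorm _ _).trans
      ((mul_le_mul b1 a1 (norm_nonneg _) (by positivity)).trans (le_of_eq ?_))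
    field_simp
    ring
  have e2 : ‖D.yc x‖ ≤ 1 / (2 * B ^ 3) * ‖x‖ := by
    have := hx.2
    have := mul_le_mul_of_nonneg_right (min_le_right θ₁ (1 / (2 * B ^ 3))) xp.le
    linarith [norm_nonneg (D.lc x)]
  have e3 : ‖D.gH (D.eta x v) (liftI 9 D.iH (D.yc x))‖ ≤ ‖v‖ := by
    refine (b3 _ _).trans ?_
    rw [LinearIsometry.norm_map]
    refine (mul_le_mul (mul_le_mul_of_nonneg_left e1 hB.le) e2 (norm_nonneg _)
      (by positivity)).trans (le_of_eq ?_)
    field_simp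
  obtain ⟨h, hh⟩ := D.bucb_split (D.eta x v) x
  have z1 := D.zc_asm 0 0 h
  have z2 := D.lc_asm 0 0 h
  simp only [asm, map_zero, zero_add] at z1 z2
  rw [Prod.norm_def]
  unfold tau
  rw [hh, map_sub, map_sub, map_add, map_add, z1, z2, zero_add, zero_add]
  refine max_le ((norm_sub_le _ _).trans ?_) ((norm_sub_le _ _).trans ?_)
  · linarith [D.norm_zc_le v, D.norm_zc_le (D.gH (D.eta x v) (liftI 9 D.iH (D.yc x)))]
  · linarith [D.norm_lc_le v, D.norm_lc_le (D.gH (D.eta x v) (liftI 9 D.iH (D.yc x)))]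


end Levi

end Crest.Agent.R330

end
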