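import Crest.Agent.R330.BU.C

/-! # Row 330, BU/D (block owner helper22)
The gradient bound for the orbit average.
`piola_wt`: `piola` with `a = buA`, `Φ y = Phi (zc y) (yc y)`, `g t = smoothTransition (2 - 4 ‖t‖²)`,
`j y = jac (zc y) * w (zc y, lc y)`; `fpOp_eq`, `fderiv_PhiX`, `fderiv_jac`, `fderiv_M`;
`Filter.EventuallyEq.fderiv_eq` to pass from `p` to `g (Φ ·) * j`.
`grad_bound`: `Grp.fderiv_avg_le` with `H q = p q.1 • eta q.1 q.2`, `Λ = (η + 8 Ω₁) / ‖x‖`.  At `x' = ax k x ∈ Ω`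
(same norm): either `p = 0` near `x'` (`wtX_eventually`, or `x' ∉ tsupport χ`), or `x' ∈ tube κ θ` by the gap
property and `χ = 1` near `x'`. -/

set_option autoImplicit false
set_option linter.unusedSectionVars false
set_option linter.unusedVariables false

noncomputable section

open MeasureTheory Filter Topology
open scoped InnerProductSpace ContDiff Matrix
open Crest.MathPhysics.MatrixQM (GammaNine)

namespace Crest.Agent.R330

variable {E Z L H F : Type}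
  [NormedAddCommGroup E] [InnerProductSpace ℝ E] [FiniteDimensional ℝ E]
  [NormedAddCommGroup Z] [InnerProductSpace ℝ Z] [FiniteDimensional ℝ Z]
  [NormedAddCommGroup L] [InnerProductSpace ℝ L] [FiniteDimensional ℝ L]
  [NormedAddCommGroup H] [InnerProductSpace ℝ H] [FiniteDimensional ℝ H]
  [NormedAddCommGroup F] [InnerProductSpace ℂ F] [FiniteDimensional ℂ F]
  [MeasurableSpace E] [BorelSpace E] [MeasurableSpace Z] [BorelSpace Z]
  [MeasurableSpace L] [BorelSpace L] [MeasurableSpace H] [BorelSpace H]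
  {P : Type} [Fintype P] {𝔤 : Lie E} (D : Levi 𝔤 Z L H P) (C : Cl (Th E) F) (σ : Spn)
  {K : Type} [Group K] [TopologicalSpace K] [IsTopologicalGroup K]
  [CompactSpace K] [MeasurableSpace K] [BorelSpace K] (Γ : Grp 𝔤 K)

namespace Levi

theorem fpOp_eq : fpOp D.buA (fun y => D.Phi (D.zc y) (D.yc y)) = D.Dop :=
by
  funext x
  ext ξ
  simp only [fpOp, ContinuousLinearMap.comp_apply, LinearMap.coe_toContinuousLinearMap',
    LinearMap.flip_apply, fderiv_PhiX]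
  rfl

theorem buda_jac {z : X Z} (hz : z ∈ D.reg) : DifferentiableAt ℝ D.jac z := by
  have h : ∀ p, DifferentiableAt ℝ (D.M p) z := fun p =>
    ((D.contDiffOn_M p).contDiffAt (D.isOpen_reg.mem_nhds hz)).differentiableAt (by simp)
  unfold jac
  fun_prop

theorem piola_wt {x : X E} (hz : D.zc x ∈ D.reg) (hD : IsUnit (D.Dop x)) {w : X Z × X L → ℝ}
    (hw : DifferentiableAt ℝ w (D.zc x, D.lc x)) {p : X E → ℝ}
    (hp : p =ᶠ[𝓝 x] fun y => D.wtX y * w (D.zc y, D.lc y)) (v : X E) :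
    fderiv ℝ p x v - gdiv D.buA (fun q => p q.1 • D.eta q.1 q.2) x v =
      D.wtX x * (w (D.zc x, D.lc x) * D.Br x v +
        fderiv ℝ w (D.zc x, D.lc x) (D.zc (D.tau x v), D.lc (D.tau x v))) :=
by
  set zcL := LinearMap.toContinuousLinearMap D.zc with hzcL
  set lcL := LinearMap.toContinuousLinearMap D.lc with hlcL
  have dz : HasFDerivAt (fun y => D.zc y) zcL x := zcL.hasFDerivAt
  have dzl : HasFDerivAt (fun y => (D.zc y, D.lc y)) (zcL.prod lcL) x := (zcL.prod lcL).hasFDerivAt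
  have dj : HasFDerivAt (fun y => D.jac (D.zc y) * w (D.zc y, D.lc y)) _ x :=
    ((D.buda_jac hz).hasFDerivAt.comp x dz).mul (hw.hasFDerivAt.comp x dzl)
  have hg : DifferentiableAt ℝ (fun t : H => Real.smoothTransition (2 - 4 * ‖t‖ ^ 2))
      (D.Phi (D.zc x) (D.yc x)) :=
    ((Real.smoothTransition.contDiff (n := 1)).comp
      (contDiff_const.sub (contDiff_const.mul (contDiff_norm_sq ℝ)))).differentiable (by simp) _
  have key := (piola D.buA (Φ := fun y => D.Phi (D.zc y) (D.yc y))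
    (g := fun t : H => Real.smoothTransition (2 - 4 * ‖t‖ ^ 2))
    (j := fun y => D.jac (D.zc y) * w (D.zc y, D.lc y)) (x := x) v
    (D.contDiff_PhiX.contDiffAt.of_le (by norm_cast)) hg dj.differentiableAt
    (by rw [D.fpOp_eq]; exact hD)).2
  simp only [D.fpOp_eq, D.fderiv_PhiX, buA_apply] at key
  have hp' : p =ᶠ[𝓝 x] fun y => Real.smoothTransition (2 - 4 * ‖D.Phi (D.zc y) (D.yc y)‖ ^ 2) *
      (D.jac (D.zc y) * w (D.zc y, D.lc y)) := by
    filter_upwards [hp] with y hy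
    rw [hy, wtX, wt, mul_assoc]
  have hH : (fun q : X E × X E => p q.1 • D.eta q.1 q.2) =ᶠ[𝓝 (x, v)] fun q =>
      (Real.smoothTransition (2 - 4 * ‖D.Phi (D.zc q.1) (D.yc q.1)‖ ^ 2) *
        (D.jac (D.zc q.1) * w (D.zc q.1, D.lc q.1))) •
        Ring.inverse (D.Dop q.1) (D.dPhi q.1 q.2) := by
    filter_upwards [(continuous_fst.tendsto (x, v)).eventually hp'] with q hq
    rw [hq]
    rfl
  unfold gdiv at key ⊢
  rw [hp'.fderiv_eq, hH.fderiv_eq, key, dj.fderiv]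
  have e1 : ∀ p, fderiv ℝ (D.M p) (D.zc x) (D.zc (D.tau x v)) / D.M p (D.zc x) =
      (∑ i, D.α p (D.zc x i) * D.α p (D.zc (D.tau x v) i)) / D.M p (D.zc x) ^ 2 := fun p => by
    rw [D.fderiv_M p hz, div_div, sq]
  have e2 := D.fderiv_jac hz (D.zc (D.tau x v))
  simp only [mul_div_assoc, e1] at e2
  unfold Br wtX wt
  simp only [add_apply, smul_apply,
    ContinuousLinearMap.comp_apply, ContinuousLinearMap.prod_apply, smul_eq_mul, hzcL, hlcL,
    LinearMap.coe_toContinuousLinearMap', Function.comp_apply, mul_div_assoc]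
  change _ * (D.jac (D.zc x) * fderiv ℝ w (D.zc x, D.lc x) (D.zc (D.tau x v), D.lc (D.tau x v)) +
    w (D.zc x, D.lc x) * fderiv ℝ D.jac (D.zc x) (D.zc (D.tau x v)) -
    _ * LinearMap.trace ℝ H ((Ring.inverse (D.Dop x)).comp (fderiv ℝ D.Dop x (D.tau x v))).toLinearMap -
    _ * ∑ i, ⟪stdOrthonormalBasis ℝ H i, Ring.inverse (D.Dop x) (D.dPhi x
      (D.gH (stdOrthonormalBasis ℝ H i) (D.gH (D.eta x v) x) -
        D.gH (D.eta x v) (D.gH (stdOrthonormalBasis ℝ H i) x)))⟫_ℝ) = _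
  rw [e2]
  ring

theorem piola_zero {x : X E} {p : X E → ℝ} (hp : ∀ᶠ y in 𝓝 x, p y = 0) (v : X E) :
    fderiv ℝ p x v - gdiv D.buA (fun q => p q.1 • D.eta q.1 q.2) x v = 0 :=
by
  have hp' : p =ᶠ[𝓝 x] fun _ => 0 := hp
  have hH : (fun q : X E × X E => p q.1 • D.eta q.1 q.2) =ᶠ[𝓝 (x, v)] fun _ => 0 := by
    filter_upwards [(continuous_fst.tendsto (x, v)).eventually hp] with q hq
    rw [hq, zero_smul]
  unfold gdiv
  rw [hp'.fderiv_eq, hH.fderiv_eq]
  simp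

/-- `contDiff_of_support` with `K = S ×ˢ univ` -/
theorem contDiff_H {p : X E → ℝ} (hp : ContDiff ℝ ∞ p) {S : Set (X E)} (hS : IsClosed S)
    (h0 : ∀ x, x ∉ S → p x = 0) (hD : ∀ x ∈ S, IsUnit (D.Dop x)) :
    ContDiff ℝ 1 (fun q : X E × X E => p q.1 • D.eta q.1 q.2) :=
by
  refine contDiff_of_support (K := S ×ˢ Set.univ) (U := {x | IsUnit (D.Dop x)} ×ˢ Set.univ)
    (hS.prod isClosed_univ) (D.isOpen_unit.prod isOpen_univ)
    (Set.prod_mono hD subset_rfl) (fun q hq => ?_) ?_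
  · rw [h0 q.1 fun h => hq ⟨h, trivial⟩, zero_smul]
  · exact ((hp.comp contDiff_fst).contDiffOn.smul D.contDiffOn_eta).of_le (by norm_cast)

theorem grad_bound {κ η : ℝ} (hκ : 1 ≤ κ) (hη : 0 < η) : ∃ θ₀ : ℝ, 0 < θ₀ ∧ θ₀ ≤ 1 / 4 ∧
    ∀ θ, 0 < θ → θ ≤ θ₀ → ∀ χ : X E → ℝ, ContDiff ℝ ∞ χ → (∀ x, 0 ≤ χ x) →
      (∀ x ∈ tsupport χ, x ∈ D.tube (2 * κ) (2 * θ) ∧ x ≠ 0) →
      (∀ x ∈ D.tube κ θ, 1 ≤ ‖x‖ → ∀ᶠ y in 𝓝 x, χ y = 1) →
      ∀ Ω : Set (X E), (∀ k, ∀ x ∈ Ω, Γ.ax k x ∈ Ω) → (∀ x ∈ Ω, 1 ≤ ‖x‖) → D.GapProp κ θ Ω →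
        ∀ Ω₁, 0 ≤ Ω₁ → ∀ wl, Adm Ω₁ wl →
          ∀ x ∈ Ω, ‖fderiv ℝ (Γ.avg fun x => D.wtX x * χ x * wl (D.zc x, D.lc x)) x‖ ≤
            (η + 8 * Ω₁) / ‖x‖ * Γ.avg (fun x => D.wtX x * χ x * wl (D.zc x, D.lc x)) x :=
by
  obtain ⟨θ₁, B, t1, t1', hB, hT⟩ := D.tube_bounds (κ := 2 * κ) (by linarith)
  obtain ⟨θ₂, t2, hBr⟩ := D.Br_bound hκ hη
  obtain ⟨θ₃, t3, hτ⟩ := D.tau_light hκ
  refine ⟨min (θ₁ / 2) (min θ₂ θ₃), lt_min (by linarith) (lt_min t2 t3),
    (min_le_left _ _).trans (by linarith),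
    fun θ hθ hθ' χ c1 c2 c4 c5 Ω hK hΩ hgap Ω₁ hΩ₁ wl hw x hx => ?_⟩
  have s1 : 2 * θ ≤ θ₁ := by linarith [hθ'.trans (min_le_left _ _)]
  have s2 : θ ≤ θ₂ := hθ'.trans ((min_le_right _ _).trans (min_le_left _ _))
  have s3 : θ ≤ θ₃ := hθ'.trans ((min_le_right _ _).trans (min_le_right _ _))
  have s4 : θ ≤ 1 / 4 := by linarith
  obtain ⟨hp, hp0⟩ := D.contDiff_pw s4 c1 c4 hw
  have hU := fun y (hy : y ∈ tsupport χ) => hT (2 * θ) (by linarith) s1 y (c4 y hy).1 (c4 y hy).2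
  have x1 := hΩ x hx
  refine Γ.fderiv_avg_le D.buA D.iH (fun ξ => rfl) hp (fun y => hp0 y c2)
    (D.contDiff_H hp (isClosed_tsupport χ) (fun y hy => by
      rw [image_eq_zero_of_notMem_tsupport hy, mul_zero, zero_mul]) fun y hy => (hU y hy).2.1)
    (by positivity) fun k v => ?_
  have n : ‖Γ.ax k x‖ = ‖x‖ := (Γ.ax k).norm_map x
  have hx' := hK k x hx
  set x' := Γ.ax k x
  have r0 : 0 ≤ (η + 8 * Ω₁) / ‖x‖ * (D.wtX x' * χ x' * wl (D.zc x', D.lc x')) * ‖v‖ := by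
    have := hp0 x' c2
    positivity
  by_cases a1 : ‖D.Phi (D.zc x') (D.yc x')‖ < 1
  · by_cases a2 : x' ∈ tsupport χ
    · have ht : x' ∈ D.tube κ θ := hgap x' hx' a1 (c4 x' a2).1
      have x0 : x' ≠ 0 := (c4 x' a2).2
      have e1 := c5 x' ht (n ▸ x1)
      have z0 : D.zc x' ≠ 0 := D.tube_zc_ne (by linarith) ht x0
      have hwd : DifferentiableAt ℝ wl (D.zc x', D.lc x') :=
        (hw.1.contDiffAt ((isOpen_ne_fun continuous_fst continuous_const).mem_nhds z0)).differentiableAt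
          (by simp)
      rw [D.piola_wt (hU x' a2).1 (hU x' a2).2.1 hwd (by
        filter_upwards [e1] with y hy
        rw [hy, mul_one]), e1.self_of_nhds, mul_one, abs_mul, abs_of_nonneg (show 0 ≤ D.wtX x' from D.wt_nonneg _ _)]
      obtain ⟨w0, w1⟩ := hw.2 (D.zc x', D.lc x') z0
      have b1 := hBr x' (D.bu_tube_mono le_rfl s2 ht) x0 v
      have b2 := hτ x' (D.bu_tube_mono le_rfl s3 ht) x0 v
      have b3 := D.tube_norm_zc ht
      rw [n] at b1 b3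
      have zp : 0 < ‖D.zc x'‖ := norm_pos_iff.mpr z0
      have b4 : |fderiv ℝ wl (D.zc x', D.lc x') (D.zc (D.tau x' v), D.lc (D.tau x' v))| ≤
          Ω₁ * wl (D.zc x', D.lc x') / ‖D.zc x'‖ * (2 * ‖v‖) :=
        (ContinuousLinearMap.le_opNorm _ _).trans
          (mul_le_mul w1 b2 (norm_nonneg _) (by positivity))
      have b5 : 2 / ‖D.zc x'‖ ≤ 8 / ‖x‖ := by
        rw [div_le_div_iff₀ zp (by linarith)]
        nlinarith
      have b6 : |wl (D.zc x', D.lc x') * D.Br x' v +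
          fderiv ℝ wl (D.zc x', D.lc x') (D.zc (D.tau x' v), D.lc (D.tau x' v))| ≤
          (η + 8 * Ω₁) / ‖x‖ * wl (D.zc x', D.lc x') * ‖v‖ := by
        refine (abs_add_le _ _).trans ?_
        rw [abs_mul, abs_of_pos w0]
        have k1 := mul_le_mul_of_nonneg_left b1 w0.le
        have k2 := mul_le_mul_of_nonneg_left b5
          (show 0 ≤ Ω₁ * wl (D.zc x', D.lc x') * ‖v‖ by positivity)
        have k3 : Ω₁ * wl (D.zc x', D.lc x') / ‖D.zc x'‖ * (2 * ‖v‖) =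
            Ω₁ * wl (D.zc x', D.lc x') * ‖v‖ * (2 / ‖D.zc x'‖) := by ring
        have k4 : (η + 8 * Ω₁) / ‖x‖ * wl (D.zc x', D.lc x') * ‖v‖ =
            wl (D.zc x', D.lc x') * (η / ‖x‖ * ‖v‖) +
              Ω₁ * wl (D.zc x', D.lc x') * ‖v‖ * (8 / ‖x‖) := by ring
        linarith
      have := mul_le_mul_of_nonneg_left b6 (D.wt_nonneg (D.zc x') (D.yc x'))
      unfold wtX
      linarith
    · rw [D.piola_zero (by
        filter_upwards [notMem_tsupport_iff_eventuallyEq.mp a2] with y hy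
        rw [hy, Pi.zero_apply, mul_zero, zero_mul]), abs_zero]
      exact r0
  · rw [D.piola_zero (by
      filter_upwards [D.wtX_eventually a1] with y hy
      rw [hy, zero_mul, zero_mul]), abs_zero]
    exact r0


end Levi

end Crest.Agent.R330

end
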