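import Crest.Agent.R330.BU.A

/-! # Row 330, BU/E (block owner helper22)
Localisation: pointwise identities, unfixing, (E1).
A "local functional" `q` satisfies `u =ᶠ[𝓝 x] v → q u x = q v x` and `q 0 x = 0`.  `Cut.local`: if `wtX x ≠ 0`
then either `x ∈ tsupport χ ∩ tsupport ψ` (then `χ = 1` near `x`), or `χ ψ = 0` near `x` and `χ x = 0` or
`ψ = 0` near `x`.
`e1`: all `PI` integrals are `∫ p_w * h` with `p_w = wtX χ wl` and `h` an invariant density of `ψ`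
(`Grp.densities` with `f = 0`); `unfix`; `energy_weighted_Qd` with `ϖ = Γ.avg p_w`, `Λ x = (1 + 8 Ω₁) / ‖x‖`,
`U = Ω`. -/

set_option autoImplicit false
set_option linter.unusedSectionVars false
set_option linter.unusedVariables false

noncomputable section

open MeasureTheory Filter Topology
open scoped InnerProductSpace ContDiff Matrix
open Crest.MathPhysics.MatrixQM (GammaNine)

namespace Crest.Agent.R330

variable {E Z L H F : Type}
  [NormedAddCommGroup E] [InnerProductSpace ℝ E] [FiniteDimensional ℝ E]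
  [NormedAddCommGroup Z] [InnerProductSpace ℝ Z] [FiniteDimensional ℝ Z]
  [NormedAddCommGroup L] [InnerProductSpace ℝ L] [FiniteDimensional ℝ L]
  [NormedAddCommGroup H] [InnerProductSpace ℝ H] [FiniteDimensional ℝ H]
  [NormedAddCommGroup F] [InnerProductSpace ℂ F] [FiniteDimensional ℂ F]
  [MeasurableSpace E] [BorelSpace E] [MeasurableSpace Z] [BorelSpace Z]
  [MeasurableSpace L] [BorelSpace L] [MeasurableSpace H] [BorelSpace H]
  {P : Type} [Fintype P] {𝔤 : Lie E} (D : Levi 𝔤 Z L H P) (C : Cl (Th E) F) (σ : Spn)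
  {K : Type} [Group K] [TopologicalSpace K] [IsTopologicalGroup K]
  [CompactSpace K] [MeasurableSpace K] [BorelSpace K] (Γ : Grp 𝔤 K)

namespace Levi

/-- the hypotheses on the cut-off and the region -/
structure Cut (κ θ R : ℝ) (χ : X E → ℝ) (Ω : Set (X E)) : Prop where
  smooth : ContDiff ℝ ∞ χ
  nonneg : ∀ x, 0 ≤ χ x
  supp : ∀ x ∈ tsupport χ, x ∈ D.tube (2 * κ) (2 * θ) ∧ x ≠ 0
  one : ∀ x ∈ D.tube κ θ, 1 ≤ ‖x‖ → ∀ᶠ y in 𝓝 x, χ y = 1
  isOpen : IsOpen Ω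
  far : ∀ x ∈ Ω, R ≤ ‖x‖
  R1 : 1 ≤ R
  gap : D.GapProp κ θ Ω

variable {D}

theorem Cut.local {κ θ R : ℝ} {χ : X E → ℝ} {Ω : Set (X E)} (h : D.Cut κ θ R χ Ω) {ψ : X E → F}
    (hs : tsupport ψ ⊆ Ω) (q : (X E → F) → X E → ℝ)
    (hq : ∀ u v x, u =ᶠ[𝓝 x] v → q u x = q v x) (hq0 : ∀ x, q 0 x = 0) (x : X E) :
    D.wtX x * q (fun y => (χ y : ℂ) • ψ y) x = D.wtX x * χ x * q ψ x :=
by
  by_cases w : D.wtX x = 0
  · simp [w]
  by_cases a1 : x ∈ tsupport ψ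
  · by_cases a2 : x ∈ tsupport χ
    · have ht := h.gap x (hs a1) (D.Phi_lt_of_wtX w) (h.supp x a2).1
      have e := h.one x ht (h.R1.trans (h.far x (hs a1)))
      rw [e.self_of_nhds, mul_one, hq _ ψ x (by
        filter_upwards [e] with y hy
        simp [hy])]
    · rw [image_eq_zero_of_notMem_tsupport a2, hq _ 0 x (by
        filter_upwards [notMem_tsupport_iff_eventuallyEq.mp a2] with y hy
        simp [hy]), hq0]
      simp
  · rw [hq ψ 0 x (notMem_tsupport_iff_eventuallyEq.mp a1), hq _ 0 x (by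
      filter_upwards [notMem_tsupport_iff_eventuallyEq.mp a1] with y hy
      simp [hy]), hq0]
    simp

/-- where the weighted density does not vanish we are in the good region -/
theorem Cut.good {κ θ R : ℝ} {χ : X E → ℝ} {Ω : Set (X E)} (h : D.Cut κ θ R χ Ω) {x : X E}
    (hx : x ∈ Ω) (hp : D.wtX x * χ x ≠ 0) :
    x ∈ D.tube κ θ ∧ R ≤ ‖x‖ ∧ ‖D.Phi (D.zc x) (D.yc x)‖ < 1 :=
by
  have a1 := D.Phi_lt_of_wtX (left_ne_zero_of_mul hp)
  have a2 : x ∈ tsupport χ := subset_tsupport _ (right_ne_zero_of_mul hp)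
  exact ⟨h.gap x hx a1 (h.supp x a2).1, h.far x hx, a1⟩

theorem Cut.loc {κ θ R : ℝ} {χ : X E → ℝ} {Ω : Set (X E)} (h : D.Cut κ θ R χ Ω) {𝒱 : Wts}
    {ψ : X E → F} (hψ : Cls 𝔤 C σ.G 𝒱 ψ) (hs : tsupport ψ ⊆ Ω) :
    D.Loc C σ.G 𝒱 κ θ R (fun x => (χ x : ℂ) • ψ x) :=
by
  refine ⟨hψ.1.smul_of_contDiffOn isOpen_univ (Set.subset_univ _) h.smooth.contDiffOn, fun x hx => ?_⟩
  by_cases a : x ∈ tsupport fun x => (χ x : ℂ) • ψ x
  · have a1 : x ∈ tsupport ψ := tsupport_smul_subset_right (fun x => (χ x : ℂ)) ψ a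
    have a2 : x ∈ tsupport χ := by
      by_contra hn
      refine (notMem_tsupport_iff_eventuallyEq.mpr ?_) a
      filter_upwards [notMem_tsupport_iff_eventuallyEq.mp hn] with y hy
      simp [hy]
    have ht := h.gap x (hs a1) hx (h.supp x a2).1
    have e := h.one x ht (h.R1.trans (h.far x (hs a1)))
    have e' : (fun x => (χ x : ℂ) • ψ x) =ᶠ[𝓝 x] ψ := by
      filter_upwards [e] with y hy
      simp [hy]
    have k : ∀ {A : X E →ₗ[ℝ] X E} {S : F →L[ℂ] F} {k : ℝ}, WtAt A S k ψ x →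
        WtAt A S k (fun x => (χ x : ℂ) • ψ x) x := fun hw => by
      unfold WtAt at hw ⊢
      rw [e'.fderiv_eq, e'.self_of_nhds, hw]
    exact ⟨fun _ => ⟨ht, h.far x (hs a1)⟩, fun ξ => k (hψ.2.1 x ξ), fun p hp => k (hψ.2.2 p hp x)⟩
  · exact ⟨fun a' => absurd a' a, fun ξ => WtAt.of_notMem_tsupport a,
      fun p hp => WtAt.of_notMem_tsupport a⟩

variable (D)

omit D in
/-- the four densities are local functionals -/
theorem _root_.Crest.Agent.R330.dens_local (𝔤 : Lie E) (ε κ' : ℝ) :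
    (∀ (u v : X E → F) x, u =ᶠ[𝓝 x] v → ‖u x‖ ^ 2 = ‖v x‖ ^ 2 ∧
      ‖Qe 𝔤 C σ ε u x‖ ^ 2 = ‖Qe 𝔤 C σ ε v x‖ ^ 2 ∧ gsq u x = gsq v x ∧
      edens 𝔤 C σ ε (fun _ => 0) κ' u x = edens 𝔤 C σ ε (fun _ => 0) κ' v x) ∧
    ∀ x, ‖Qe 𝔤 C σ ε 0 x‖ ^ 2 = 0 ∧ gsq (0 : X E → F) x = 0 ∧
      edens 𝔤 C σ ε (fun _ => 0) κ' 0 x = 0 :=
by
  refine ⟨fun u v x h => ?_, fun x => ?_⟩
  · simp only [Qe, Qd, dirac, gsq, edens, h.fderiv_eq, h.self_of_nhds, and_self]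
  · simp [Qe, Qd, dirac, gsq, edens]

omit D in
theorem _root_.Crest.Agent.R330.buea_yuk (𝔤 : Lie E) (ε : ℝ) :
    Continuous fun x : X E => C.iS (yuk 𝔤 σ ε (fun _ => 0) x) := by
  let S : (Th E →ₗ[ℝ] Th E) →ₗ[ℝ] (F →L[ℂ] F) :=
    { toFun := C.S
      map_add' := C.S_add
      map_smul' := fun r A => by rw [C.S_smul]; rfl }
  let Y : X E →ₗ[ℝ] (Th E →ₗ[ℝ] Th E) :=
    { toFun := fun x => ∑ i, mat (σ.G.γ i) ∘ₗ lift 16 (𝔤.br (x i))
      map_add' := fun x y => by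
        ext v a
        simp [Finset.sum_add_distrib]
      map_smul' := fun r x => by
        ext v a
        simp [Finset.smul_sum, smul_comm r] }
  have e : ∀ x : X E, C.iS (yuk 𝔤 σ ε (fun _ => 0) x) =
      Complex.I • ((S ∘ₗ Y) x + S (yuk 𝔤 σ ε (fun _ => 0) 0 - Y 0)) := fun x => by
    rw [LinearMap.comp_apply, ← map_add]
    show Complex.I • C.S _ = Complex.I • C.S _
    congr 2
    simp only [yuk, Y, LinearMap.coe_mk, AddHom.coe_mk, fderiv_fun_const, Pi.zero_apply]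
    abel
  simp only [e]
  exact ((S ∘ₗ Y).continuous_of_finiteDimensional.add continuous_const).const_smul Complex.I

omit D in
/-- the four densities of a core function are continuous and vanish off the support -/
theorem _root_.Crest.Agent.R330.dens_cont (𝔤 : Lie E) (ε κ' : ℝ) {ψ : X E → F} (hψ : Core ψ) :
    (Continuous (fun x => ‖ψ x‖ ^ 2) ∧ Continuous (fun x => ‖Qe 𝔤 C σ ε ψ x‖ ^ 2) ∧
      Continuous (gsq ψ) ∧ Continuous (edens 𝔤 C σ ε (fun _ => 0) κ' ψ)) ∧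
    ∀ x, x ∉ tsupport ψ → ‖ψ x‖ ^ 2 = 0 ∧ ‖Qe 𝔤 C σ ε ψ x‖ ^ 2 = 0 ∧ gsq ψ x = 0 ∧
      edens 𝔤 C σ ε (fun _ => 0) κ' ψ x = 0 :=
by
  have c0 : Continuous ψ := hψ.1.continuous
  have cw : ContDiff ℝ ∞ (wd 𝔤 σ ε fun _ => 0) := contDiff_wd 𝔤 σ ε contDiff_const
  have c1 : Continuous (gsq ψ) := continuous_finsetSum _ fun i _ =>
    (((hψ.1.continuous_fderiv (by simp)).clm_apply continuous_const).norm.pow 2)
  refine ⟨⟨c0.norm.pow 2, (Core.dirac C _ cw hψ).1.continuous.norm.pow 2, c1, ?_⟩, fun x hx => ?_⟩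
  · exact ((continuous_const.mul c1).add ((continuous_const.mul (cw.continuous.norm.pow 2)).mul
      (c0.norm.pow 2))).add (Complex.continuous_re.comp
        (c0.inner ((buea_yuk C σ 𝔤 ε).clm_apply c0)))
  · have l := dens_local C σ 𝔤 ε κ'
    obtain ⟨a1, a2, a3, a4⟩ := l.1 ψ 0 x (notMem_tsupport_iff_eventuallyEq.mp hx)
    exact ⟨by rw [a1]; simp, a2.trans (l.2 x).1, a3.trans (l.2 x).2.1, a4.trans (l.2 x).2.2⟩

omit D in
/-- a coefficient continuous off the origin times a density supported away from the origin -/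
theorem _root_.Crest.Agent.R330.cont_mul_dens {a q : X E → ℝ} (ha : ContinuousOn a {x | x ≠ 0})
    (hq : Continuous q) {S : Set (X E)} (hS : IsCompact S) (hS0 : (0 : X E) ∉ S)
    (h0 : ∀ x, x ∉ S → q x = 0) :
    Continuous (fun x => a x * q x) ∧ HasCompactSupport (fun x => a x * q x) ∧
      Integrable (fun x => a x * q x) :=
by
  have c : Continuous fun x => a x * q x := by
    rw [← contDiff_zero (𝕜 := ℝ)]
    refine contDiff_of_support (K := S) (U := {x | x ≠ 0}) hS.isClosed isOpen_ne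
      (fun x hx h => hS0 (h ▸ hx)) (fun x hx => by rw [h0 x hx, mul_zero]) ?_
    rw [contDiffOn_zero]
    exact ha.mul hq.continuousOn
  have s : HasCompactSupport fun x => a x * q x :=
    HasCompactSupport.intro hS fun x hx => by rw [h0 x hx, mul_zero]
  exact ⟨c, s, c.integrable_of_hasCompactSupport s⟩

theorem e1 {κ θ R : ℝ} {χ : X E → ℝ} {Ω : Set (X E)} (h : D.Cut κ θ R χ Ω)
    (hg : ∀ Ω₁, 0 ≤ Ω₁ → ∀ wl, Adm Ω₁ wl →
      ContDiff ℝ ∞ (fun x => D.wtX x * χ x * wl (D.zc x, D.lc x)) ∧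
      ∀ x ∈ Ω, ‖fderiv ℝ (Γ.avg fun x => D.wtX x * χ x * wl (D.zc x, D.lc x)) x‖ ≤
        (1 + 8 * Ω₁) / ‖x‖ * Γ.avg (fun x => D.wtX x * χ x * wl (D.zc x, D.lc x)) x)
    (hθ : θ ≤ 1 / 4) {ε k : ℝ} (hε : 0 ≤ ε) {𝒱 : Wts} {ψ : X E → F} (hψ : Cls 𝔤 C σ.G 𝒱 ψ)
    (hk : ε = 0 ∨ (0 ≤ k ∧ (V0, k) ∈ 𝒱)) (hs : tsupport ψ ⊆ Ω) :
    D.E1 C σ ε (fun τ Ω₁ => (1 / (16 * τ) + 1 / 8) * (1 + 8 * Ω₁) ^ 2)
      (fun x => (χ x : ℂ) • ψ x) :=
by
  intro τ Ω₁ t0 t1 o0 wl hw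
  obtain ⟨hp, hN⟩ := hg Ω₁ o0 wl hw
  have hp0 := fun x => (D.contDiff_pw hθ h.smooth h.supp hw).2 x h.nonneg
  set p := fun x => D.wtX x * χ x * wl (D.zc x, D.lc x) with hpdef
  have hψ0 : Cls 𝔤 C σ.G ∅ ψ := ⟨hψ.1, hψ.2.1, fun p hp => hp.elim⟩
  have ne : ∀ x ∈ Ω, x ≠ 0 := fun x hx h0 => by
    have := h.R1.trans (h.far x hx)
    rw [h0, norm_zero] at this
    linarith
  have S0 : (0 : X E) ∉ tsupport ψ := fun h0 => ne 0 (hs h0) rfl
  have hl := dens_local C σ 𝔤 ε (1 / 2 - τ)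
  obtain ⟨⟨c1, c2, c3, c4⟩, hz⟩ := dens_cont C σ 𝔤 ε (1 / 2 - τ) hψ.1
  have hd := fun k x => Γ.densities C σ ε (1 / 2 - τ) (f := fun _ => 0) contDiff_const
    (fun k v => by simp) hψ0 k x
  have key := energy_weighted_Qd 𝔤 C σ ε k (f := fun _ => 0) contDiff_const (fun a u v => by simp)
    hψ0 (hk.imp id fun hk => ⟨mul_nonneg hε hk.1, hψ.2.2 _ hk.2⟩) h.isOpen hs
    (ϖ := Γ.avg p) (Λ := fun x => (1 + 8 * Ω₁) / ‖x‖)
    ((Γ.contDiff_avg hp).of_le (by norm_cast)).contDiffOn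
    (continuousOn_const.div continuous_norm.continuousOn fun x hx => norm_ne_zero_iff.mpr (ne x hx))
    (fun x _ => Γ.avg_nonneg hp0 x) hN t0
  have s4 : HasCompactSupport (edens 𝔤 C σ ε (fun _ => 0) (1 / 2 - τ) ψ) :=
    HasCompactSupport.intro hψ.1.2 fun x hx => (hz x hx).2.2.2
  have s2 : HasCompactSupport fun x => ‖Qe 𝔤 C σ ε ψ x‖ ^ 2 :=
    HasCompactSupport.intro hψ.1.2 fun x hx => (hz x hx).2.1
  obtain ⟨-, s1, i1⟩ := cont_mul_dens (a := fun x : X E => 1 / ‖x‖ ^ 2)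
    (continuousOn_const.div (continuous_norm.pow 2).continuousOn fun x hx =>
      pow_ne_zero 2 (norm_ne_zero_iff.mpr hx)) c1 hψ.1.2 S0 fun x hx => (hz x hx).1
  have u4 := Γ.integral_avg hp.continuous (c4.integrable_of_hasCompactSupport s4) s4
    fun k x => (hd k x).2.2.2
  have u2 := Γ.integral_avg hp.continuous (c2.integrable_of_hasCompactSupport s2) s2
    fun k x => by rw [Qe, (hd k x).2.1]
  have u1 := Γ.integral_avg hp.continuous i1 s1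
    fun k x => by rw [(hd k x).1, (Γ.ax k).norm_map]
  have e4 : D.PI (fun x => wl (D.zc x, D.lc x) * edens 𝔤 C σ ε (fun _ => 0) (1 / 2 - τ)
      (fun x => (χ x : ℂ) • ψ x) x) = ∫ x, p x * edens 𝔤 C σ ε (fun _ => 0) (1 / 2 - τ) ψ x := by
    refine integral_congr_ae (Eventually.of_forall fun x => ?_)
    have := h.local hs (edens 𝔤 C σ ε (fun _ => 0) (1 / 2 - τ)) (fun u v x h => (hl.1 u v x h).2.2.2)
      (fun x => (hl.2 x).2.2) x
    simp only [hpdef]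
    linear_combination (wl (D.zc x, D.lc x)) * this
  have e2 : D.PI (fun x => wl (D.zc x, D.lc x) * ‖Qe 𝔤 C σ ε (fun x => (χ x : ℂ) • ψ x) x‖ ^ 2) =
      ∫ x, p x * ‖Qe 𝔤 C σ ε ψ x‖ ^ 2 := by
    refine integral_congr_ae (Eventually.of_forall fun x => ?_)
    have := h.local hs (fun u x => ‖Qe 𝔤 C σ ε u x‖ ^ 2) (fun u v x h => (hl.1 u v x h).2.1)
      (fun x => (hl.2 x).1) x
    simp only [hpdef]
    linear_combination (wl (D.zc x, D.lc x)) * this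
  have e1 : D.PI (fun x => wl (D.zc x, D.lc x) / ‖x‖ ^ 2 * ‖(χ x : ℂ) • ψ x‖ ^ 2) =
      ∫ x, p x * (1 / ‖x‖ ^ 2 * ‖ψ x‖ ^ 2) := by
    refine integral_congr_ae (Eventually.of_forall fun x => ?_)
    have := h.local hs (fun u x => ‖u x‖ ^ 2) (fun u v x h => (hl.1 u v x h).1)
      (fun x => by simp) x
    simp only [hpdef]
    linear_combination (wl (D.zc x, D.lc x) / ‖x‖ ^ 2) * this
  have e0 : ∫ x, ((1 + 8 * Ω₁) / ‖x‖) ^ 2 * Γ.avg p x * ‖ψ x‖ ^ 2 =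
      (1 + 8 * Ω₁) ^ 2 * ∫ x, Γ.avg p x * (1 / ‖x‖ ^ 2 * ‖ψ x‖ ^ 2) := by
    rw [← integral_const_mul]
    refine integral_congr_ae (Eventually.of_forall fun x => ?_)
    simp only [div_pow]
    ring
  rw [e4, e2, e1, u4, u2, u1, mul_assoc, ← e0]
  exact key


end Levi

end Crest.Agent.R330

end
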