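import Crest.Agent.R330.BU.E

/-! # Row 330, BU/F (block owner helper22)
(E2).  `fw x = (‖x‖ + |w_ε x|²) / ‖x‖⁴` is `K`-invariant (`norm_wd_ax`).
`fw_bounds`: `|w| ≤ (b + 4) ρ²`, `‖dw‖ ≤ (b + 4) ρ` (`exists_norm_wpot`, `norm_cmap`, `norm_V0_le`), and
`2 |w| s ≤ s² + |w|²` with `s = √ρ` gives `2 |w| / ρ³ ≤ √ρ fw`.
`energy_fw`: `energy_weighted_Qd` with `ϖ = N * fw`, `Λ = (c + 1) √ρ`, `τ = 1/4`; the Yukawa term is at most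
`2 b ρ |ψ|²` (`exists_norm_yuk`), and `A ρ fw ≤ (A + A²) / ρ² + fw |w|² / 4`.
`e2`: `Cut.local`, `Cut.good`, `wd_tube`: `|y|²/ρ² ≤ B fw`, `|y|⁴ ≤ 2 B² (fw |w|² + 1/ρ²)`; `integral_avg`
in both directions. -/

set_option autoImplicit false
set_option linter.unusedSectionVars false
set_option linter.unusedVariables false

noncomputable section

open MeasureTheory Filter Topology
open scoped InnerProductSpace ContDiff Matrix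
open Crest.MathPhysics.MatrixQM (GammaNine)

namespace Crest.Agent.R330

variable {E Z L H F : Type}
  [NormedAddCommGroup E] [InnerProductSpace ℝ E] [FiniteDimensional ℝ E]
  [NormedAddCommGroup Z] [InnerProductSpace ℝ Z] [FiniteDimensional ℝ Z]
  [NormedAddCommGroup L] [InnerProductSpace ℝ L] [FiniteDimensional ℝ L]
  [NormedAddCommGroup H] [InnerProductSpace ℝ H] [FiniteDimensional ℝ H]
  [NormedAddCommGroup F] [InnerProductSpace ℂ F] [FiniteDimensional ℂ F]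
  [MeasurableSpace E] [BorelSpace E] [MeasurableSpace Z] [BorelSpace Z]
  [MeasurableSpace L] [BorelSpace L] [MeasurableSpace H] [BorelSpace H]
  {P : Type} [Fintype P] {𝔤 : Lie E} (D : Levi 𝔤 Z L H P) (C : Cl (Th E) F) (σ : Spn)
  {K : Type} [Group K] [TopologicalSpace K] [IsTopologicalGroup K]
  [CompactSpace K] [MeasurableSpace K] [BorelSpace K] (Γ : Grp 𝔤 K)

namespace Levi

omit D in
/-- the weight of the moment inequality -/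
def _root_.Crest.Agent.R330.fw (𝔤 : Lie E) (ε : ℝ) (x : X E) : ℝ :=
  (‖x‖ + ‖wd 𝔤 σ ε (fun _ => 0) x‖ ^ 2) / ‖x‖ ^ 4

omit D in
theorem _root_.Crest.Agent.R330.bufa_wd (𝔤 : Lie E) : ∃ a : ℝ, 0 < a ∧ ∀ ε, 0 ≤ ε → ε ≤ 1 →
    ∀ x : X E, 1 ≤ ‖x‖ → ‖wd 𝔤 σ ε (fun _ => 0) x‖ ≤ a * ‖x‖ ^ 2 ∧
      ∀ v, ‖fderiv ℝ (wd 𝔤 σ ε fun _ => 0) x v‖ ≤ a * ‖x‖ * ‖v‖ := by
  obtain ⟨b, hb, h⟩ := exists_norm_wpot 𝔤 σ.G σ.unit
  refine ⟨b + 4, by linarith, fun ε e0 e1 x hx => ?_⟩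
  let A : X E →ₗ[ℝ] Th E := ε • (cmap σ.G σ.s ∘ₗ mat V0)
  have hA : ∀ v, ‖A v‖ ≤ 4 * ‖v‖ := fun v => by
    show ‖ε • cmap σ.G σ.s (mat V0 v)‖ ≤ _
    rw [norm_smul, norm_cmap σ.G σ.unit, Real.norm_of_nonneg e0]
    exact (mul_le_of_le_one_left (norm_nonneg _) e1).trans (norm_V0_le v)
  have e : (wd 𝔤 σ ε fun _ => 0) = fun y => wpot 𝔤 σ.G σ.s y + LinearMap.toContinuousLinearMap A y := by
    funext y
    have : tens σ.s' (0 : E) = 0 := by ext i; simp [tens]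
    simp only [wd, this, add_zero]
    rfl
  have hd := (((contDiff_wpot 𝔤 σ.G σ.s).differentiable (by simp) x).hasFDerivAt.add
    (LinearMap.toContinuousLinearMap A).hasFDerivAt).fderiv
  refine ⟨?_, fun v => ?_⟩
  · rw [e]
    refine (norm_add_le _ _).trans ?_
    have h1 := (h x x).1
    have h2 : ‖LinearMap.toContinuousLinearMap A x‖ ≤ 4 * ‖x‖ := hA x
    nlinarith
  · rw [e]
    erw [hd]
    rw [add_apply]
    refine (norm_add_le _ _).trans ?_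
    have h1 := (h x v).2
    have h2 : ‖LinearMap.toContinuousLinearMap A v‖ ≤ 4 * ‖v‖ := hA v
    nlinarith [mul_le_mul_of_nonneg_right hx (norm_nonneg v)]

omit D in
theorem _root_.Crest.Agent.R330.fw_bounds (𝔤 : Lie E) : ∃ c : ℝ, 0 < c ∧ ∀ ε, 0 ≤ ε → ε ≤ 1 →
    ContDiffOn ℝ 1 (fw σ 𝔤 ε) {x | x ≠ 0} ∧ ∀ x : X E, 1 ≤ ‖x‖ → 0 ≤ fw σ 𝔤 ε x ∧ fw σ 𝔤 ε x ≤ c ∧
      ‖fderiv ℝ (fw σ 𝔤 ε) x‖ ≤ c * √‖x‖ * fw σ 𝔤 ε x :=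
by
  obtain ⟨a, ha, h⟩ := bufa_wd σ 𝔤
  refine ⟨5 + a + a ^ 2, by positivity, fun ε e0 e1 => ⟨?_, fun x hx => ?_⟩⟩
  · have cw : ContDiff ℝ 1 (wd 𝔤 σ ε fun _ => 0) :=
      (contDiff_wd 𝔤 σ ε contDiff_const).of_le (by norm_cast)
    have cn : ContDiffOn ℝ 1 (fun x : X E => ‖x‖) {x | x ≠ 0} := contDiffOn_id.norm ℝ fun x hx => hx
    exact (cn.add (cw.norm_sq ℝ).contDiffOn).div (cn.pow 4) fun x hx =>
      pow_ne_zero 4 (norm_ne_zero_iff.2 hx)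
  obtain ⟨h1, h2⟩ := h ε e0 e1 x hx
  set w := wd 𝔤 σ ε fun _ => 0 with hw
  have x0 : x ≠ 0 := fun h0 => by rw [h0, norm_zero] at hx; linarith
  have rp : 0 < ‖x‖ := by linarith
  have r4 : 0 < ‖x‖ ^ 4 := by positivity
  have f0 : 0 ≤ fw σ 𝔤 ε x := by unfold fw; positivity
  refine ⟨f0, ?_, ?_⟩
  · unfold fw
    rw [div_le_iff₀ r4]
    have a1 : ‖w x‖ ^ 2 ≤ (a * ‖x‖ ^ 2) ^ 2 := pow_le_pow_left₀ (norm_nonneg _) h1 2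
    have a2 : ‖x‖ ≤ ‖x‖ ^ 4 := le_self_pow₀ hx (by norm_num)
    nlinarith [mul_pos ha r4]
  · have hn : HasFDerivAt (fun y : X E => ‖y‖) (fderiv ℝ (fun y : X E => ‖y‖) x) x :=
      (differentiableAt_id.norm ℝ x0).hasFDerivAt
    have hn1 : ‖fderiv ℝ (fun y : X E => ‖y‖) x‖ ≤ 1 := by
      simpa using norm_fderiv_le_of_lipschitz ℝ (x₀ := x) (lipschitzWith_one_norm (E := X E))
    set n' := fderiv ℝ (fun y : X E => ‖y‖) x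
    have hwd : HasFDerivAt w (fderiv ℝ w x) x :=
      ((contDiff_wd 𝔤 σ ε contDiff_const).differentiable (by simp) x).hasFDerivAt
    have hφ := ((hasDerivAt_pow 4 ‖x‖).inv r4.ne').comp_hasFDerivAt x hn
    have hd := ((hn.add hwd.norm_sq).mul hφ).fderiv
    have e : fw σ 𝔤 ε = ((fun y : X E => ‖y‖) + fun y => ‖w y‖ ^ 2) *
        ((fun t : ℝ => t ^ 4)⁻¹ ∘ fun y : X E => ‖y‖) := by
      funext y
      simp [fw, hw, div_eq_mul_inv]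
    refine ContinuousLinearMap.opNorm_le_bound _ (by positivity) fun v => ?_
    rw [show fderiv ℝ (fw σ 𝔤 ε) x = _ from e ▸ hd]
    have n1 : |n' v| ≤ ‖v‖ := by
      have := n'.le_of_opNorm_le hn1 v
      rwa [one_mul] at this
    have n2 : |⟪w x, fderiv ℝ w x v⟫_ℝ| ≤ ‖w x‖ * (a * ‖x‖ * ‖v‖) :=
      (abs_real_inner_le_norm _ _).trans (mul_le_mul_of_nonneg_left (h2 v) (norm_nonneg _))
    set s := √‖x‖
    have s1 : 1 ≤ s := Real.one_le_sqrt.2 hx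
    have s2 : s ^ 2 = ‖x‖ := Real.sq_sqrt rp.le
    set g := ‖x‖ + ‖w x‖ ^ 2 with hg
    have g1 : 1 ≤ g := by nlinarith [sq_nonneg ‖w x‖]
    have g2 : 2 * ‖w x‖ * s ≤ g := by nlinarith [sq_nonneg (‖w x‖ - s)]
    have ev : (((fun y : X E => ‖y‖) + fun y => ‖w y‖ ^ 2) x •
          (-(((4 : ℕ) : ℝ) * ‖x‖ ^ (4 - 1)) / (‖x‖ ^ 4) ^ 2) • n' +
        ((fun t : ℝ => t ^ 4)⁻¹ ∘ fun y : X E => ‖y‖) x •
          (n' + 2 • (innerSL ℝ (w x)).comp (fderiv ℝ w x))) v =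
        (-(4 * g / ‖x‖ * n' v) + (n' v + 2 * ⟪w x, fderiv ℝ w x v⟫_ℝ)) / ‖x‖ ^ 4 := by
      simp [hg]
      field_simp
    rw [ev, Real.norm_eq_abs, abs_div, abs_of_pos r4,
      show fw σ 𝔤 ε x = g / ‖x‖ ^ 4 from rfl, div_le_iff₀ r4]
    have b1 : |-(4 * g / ‖x‖ * n' v)| ≤ 4 * g * ‖v‖ := by
      rw [abs_neg, abs_mul, abs_of_nonneg (by positivity)]
      exact mul_le_mul (div_le_self (by positivity) hx) n1 (abs_nonneg _) (by positivity)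
    have b2 : |2 * ⟪w x, fderiv ℝ w x v⟫_ℝ| ≤ a * (s * g * ‖v‖) := by
      rw [abs_mul, abs_two]
      have : 2 * (‖w x‖ * (a * ‖x‖ * ‖v‖)) = a * (s * (2 * ‖w x‖ * s) * ‖v‖) := by rw [← s2]; ring
      have h3 : a * (s * (2 * ‖w x‖ * s) * ‖v‖) ≤ a * (s * g * ‖v‖) := by gcongr
      linarith
    have b3 : g * ‖v‖ ≤ s * g * ‖v‖ := by
      rw [mul_assoc]; exact le_mul_of_one_le_left (by positivity) s1
    have b4 : ‖v‖ ≤ g * ‖v‖ := le_mul_of_one_le_left (norm_nonneg _) g1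
    have b5 : 0 ≤ a ^ 2 * (s * g * ‖v‖) := by positivity
    have e2 : (5 + a + a ^ 2) * s * (g / ‖x‖ ^ 4) * ‖v‖ * ‖x‖ ^ 4 = (5 + a + a ^ 2) * (s * g * ‖v‖) := by
      field_simp
    rw [e2]
    have := (abs_add_le _ _).trans (add_le_add b1 ((abs_add_le _ _).trans (add_le_add n1 b2)))
    linarith

theorem bufb_mul {Y : Type} [NormedAddCommGroup Y] [NormedSpace ℝ Y] {f g : Y → ℝ} {x : Y}
    (d1 : DifferentiableAt ℝ f x) (d2 : DifferentiableAt ℝ g x) (h1 : 0 ≤ f x) (h2 : 0 ≤ g x) :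
    ‖fderiv ℝ (fun y => f y * g y) x‖ ≤ f x * ‖fderiv ℝ g x‖ + g x * ‖fderiv ℝ f x‖ := by
  rw [fderiv_fun_mul d1 d2]
  refine (norm_add_le _ _).trans ?_
  rw [norm_smul, norm_smul, Real.norm_of_nonneg h1, Real.norm_of_nonneg h2]

omit D in
theorem _root_.Crest.Agent.R330.energy_fw (𝔤 : Lie E) : ∃ B : ℝ, 0 < B ∧ ∀ ε k : ℝ, 0 ≤ ε → ε ≤ 1 →
    ∀ ψ : X E → F, Cls 𝔤 C σ.G ∅ ψ → (ε = 0 ∨ (0 ≤ ε * k ∧ ∀ x, RotAt C σ.G V0 k ψ x)) →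
    ∀ Ω : Set (X E), IsOpen Ω → tsupport ψ ⊆ Ω → (∀ x ∈ Ω, 1 ≤ ‖x‖) →
    ∀ N : X E → ℝ, ContDiff ℝ ∞ N → (∀ x, 0 ≤ N x) → (∀ x ∈ Ω, ‖fderiv ℝ N x‖ ≤ 1 / ‖x‖ * N x) →
      (∫ x, N x * (fw σ 𝔤 ε x * gsq ψ x)) +
          ∫ x, N x * (fw σ 𝔤 ε x * ‖wd 𝔤 σ ε (fun _ => 0) x‖ ^ 2 * ‖ψ x‖ ^ 2) ≤
        B * ((∫ x, N x * ‖Qe 𝔤 C σ ε ψ x‖ ^ 2) + ∫ x, N x * (1 / ‖x‖ ^ 2 * ‖ψ x‖ ^ 2)) :=
by
  obtain ⟨c, hc, hf⟩ := fw_bounds σ 𝔤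
  obtain ⟨b, hb, hy⟩ := exists_norm_yuk 𝔤 C σ
  obtain ⟨A, hA⟩ : ∃ A : ℝ, A = 2 * b + 3 / 8 * (c + 1) ^ 2 := ⟨_, rfl⟩
  have A0 : 0 < A := by rw [hA]; positivity
  refine ⟨4 * (2 * c + A + A ^ 2), by positivity, fun ε k e0 e1 ψ hψ hk Ω hΩ hs h1 N hN N0 hg => ?_⟩
  obtain ⟨f1, f2⟩ := hf ε e0 e1
  set w := wd 𝔤 σ ε fun _ => 0 with hw
  set φ := fw σ 𝔤 ε with hφ
  have ne : ∀ x ∈ Ω, x ≠ 0 := fun x hx h0 => by
    have := h1 x hx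
    rw [h0, norm_zero] at this
    linarith
  have S0 : (0 : X E) ∉ tsupport ψ := fun h0 => ne 0 (hs h0) rfl
  have N1 : ContDiff ℝ 1 N := hN.of_le (by norm_cast)
  have key := energy_weighted_Qd 𝔤 C σ ε k (f := fun _ => 0) contDiff_const (fun a u v => by simp)
    hψ hk hΩ hs (ϖ := fun x => N x * φ x) (Λ := fun x => (c + 1) * √‖x‖)
    (N1.contDiffOn.mul (f1.mono ne)) (by fun_prop)
    (fun x hx => mul_nonneg (N0 x) (f2 x (h1 x hx)).1) (fun x hx => ?_) (τ := 1 / 4) (by norm_num)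
  swap
  · obtain ⟨a0, -, a2⟩ := f2 x (h1 x hx)
    have d1 := N1.differentiable one_ne_zero x
    have d2 := (f1.contDiffAt (isOpen_ne.mem_nhds (ne x hx))).differentiableAt one_ne_zero
    refine (bufb_mul d1 d2 (N0 x) a0).trans ?_
    have s1 : 1 ≤ √‖x‖ := Real.one_le_sqrt.2 (h1 x hx)
    have a3 : ‖fderiv ℝ N x‖ ≤ √‖x‖ * N x := (hg x hx).trans (mul_le_mul_of_nonneg_right
      (((div_le_one (by linarith [h1 x hx])).2 (h1 x hx)).trans s1) (N0 x))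
    nlinarith [mul_le_mul_of_nonneg_left a2 (N0 x), mul_le_mul_of_nonneg_left a3 a0]
  obtain ⟨⟨c1, c2, c3, c4⟩, hz⟩ := dens_cont C σ 𝔤 ε (1 / 2 - 1 / 4) hψ.1
  have cN : ContinuousOn N {x | x ≠ 0} := hN.continuous.continuousOn
  have cφ : ContinuousOn (fun x => N x * φ x) {x | x ≠ 0} := cN.mul f1.continuousOn
  have cw : Continuous w := (contDiff_wd 𝔤 σ ε contDiff_const).continuous
  have i1 := (cont_mul_dens cφ c3 hψ.1.2 S0 fun x hx => (hz x hx).2.2.1).2.2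
  have i2 := (cont_mul_dens (a := fun x => N x * φ x * ‖w x‖ ^ 2) (cφ.mul (cw.norm.pow 2).continuousOn) c1 hψ.1.2 S0
    fun x hx => (hz x hx).1).2.2
  have i3 := (cont_mul_dens cN c2 hψ.1.2 S0 fun x hx => (hz x hx).2.1).2.2
  have i4 := (cont_mul_dens (a := fun x => N x * (1 / ‖x‖ ^ 2)) (cN.mul (continuousOn_const.div (continuous_norm.pow 2).continuousOn
    fun x hx => pow_ne_zero 2 (norm_ne_zero_iff.mpr hx) : ContinuousOn (fun x : X E => 1 / ‖x‖ ^ 2) _))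
    c1 hψ.1.2 S0 fun x hx => (hz x hx).1).2.2
  have i5 := (cont_mul_dens cφ c4 hψ.1.2 S0 fun x hx => (hz x hx).2.2.2).2.2
  have i6 := (cont_mul_dens (a := fun x => ((c + 1) * √‖x‖) ^ 2 * (N x * φ x))
    (ContinuousOn.mul (by fun_prop) cφ) c1 hψ.1.2 S0 fun x hx => (hz x hx).1).2.2
  have i7 := (cont_mul_dens cφ c2 hψ.1.2 S0 fun x hx => (hz x hx).2.1).2.2
  have m1 : ∫ x, N x * φ x * ‖Qe 𝔤 C σ ε ψ x‖ ^ 2 ≤ c * ∫ x, N x * ‖Qe 𝔤 C σ ε ψ x‖ ^ 2 := by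
    rw [← integral_const_mul]
    refine integral_mono i7 (i3.const_mul _) fun x => ?_
    by_cases hx : x ∈ tsupport ψ
    · have := mul_le_mul_of_nonneg_left (f2 x (h1 x (hs hx))).2.1
        (mul_nonneg (N0 x) (sq_nonneg ‖Qe 𝔤 C σ ε ψ x‖))
      simp only
      linarith
    · simp [(hz x hx).2.1]
  have m2 : ∫ x, (1 / 4 * (N x * φ x * gsq ψ x) + 1 / 4 * (N x * φ x * ‖w x‖ ^ 2 * ‖ψ x‖ ^ 2)) +
      3 / 8 * (((c + 1) * √‖x‖) ^ 2 * (N x * φ x) * ‖ψ x‖ ^ 2) ≤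
      ∫ x, N x * φ x * edens 𝔤 C σ ε (fun _ => 0) (1 / 2 - 1 / 4) ψ x +
        (A + A ^ 2) * (N x * (1 / ‖x‖ ^ 2) * ‖ψ x‖ ^ 2) := by
    refine integral_mono (((i1.const_mul _).add (i2.const_mul _)).add (i6.const_mul _))
      (i5.add (i4.const_mul _)) fun x => ?_
    by_cases hx : x ∈ tsupport ψ
    swap
    · simp only [(hz x hx).1, (hz x hx).2.2.1, (hz x hx).2.2.2]
      simp
    have x1 := h1 x (hs hx)
    have rp : 0 < ‖x‖ := by linarith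
    have a0 := (f2 x x1).1
    have y1 : -(2 * b * ‖x‖ * ‖ψ x‖ ^ 2) ≤ (⟪ψ x, C.iS (yuk 𝔤 σ ε (fun _ => 0) x) (ψ x)⟫_ℂ).re := by
      have h2 := hy ε (fun _ => 0) x
      rw [fderiv_fun_const, Pi.zero_apply, norm_zero, abs_of_nonneg e0] at h2
      have h3 : ‖C.iS (yuk 𝔤 σ ε (fun _ => 0) x)‖ ≤ 2 * b * ‖x‖ := by nlinarith
      have h4 := (Complex.abs_re_le_norm _).trans ((norm_inner_le_norm (𝕜 := ℂ) (ψ x) _).trans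
        (mul_le_mul_of_nonneg_left ((C.iS (yuk 𝔤 σ ε (fun _ => 0) x)).le_of_opNorm_le h3 (ψ x))
          (norm_nonneg _)))
      have := (abs_le.1 h4).1
      nlinarith
    have y2 : A * ‖x‖ * φ x ≤ (A + A ^ 2) * (1 / ‖x‖ ^ 2) + φ x * ‖w x‖ ^ 2 / 4 := by
      have e : (A + A ^ 2) * (1 / ‖x‖ ^ 2) + φ x * ‖w x‖ ^ 2 / 4 - A * ‖x‖ * φ x =
          ((A * ‖x‖ - ‖w x‖ ^ 2 / 2) ^ 2 + ‖x‖ * ‖w x‖ ^ 2 / 4) / ‖x‖ ^ 4 := by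
        rw [show φ x = (‖x‖ + ‖w x‖ ^ 2) / ‖x‖ ^ 4 from rfl]
        field_simp
        ring
      have : 0 ≤ ((A * ‖x‖ - ‖w x‖ ^ 2 / 2) ^ 2 + ‖x‖ * ‖w x‖ ^ 2 / 4) / ‖x‖ ^ 4 := by positivity
      linarith
    have y3 := mul_le_mul_of_nonneg_left y1 (mul_nonneg (N0 x) a0)
    have y4 := mul_le_mul_of_nonneg_left y2 (mul_nonneg (N0 x) (sq_nonneg ‖ψ x‖))
    simp only [edens, ← hw, mul_pow, Real.sq_sqrt rp.le]
    rw [hA] at y4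
    rw [hA]
    linarith
  have j : Integrable fun x => 1 / 4 * (N x * φ x * gsq ψ x) +
      1 / 4 * (N x * φ x * ‖w x‖ ^ 2 * ‖ψ x‖ ^ 2) := (i1.const_mul _).add (i2.const_mul _)
  rw [integral_add j (i6.const_mul _),
    integral_add (i1.const_mul _) (i2.const_mul _), integral_add i5 (i4.const_mul _),
    integral_const_mul, integral_const_mul, integral_const_mul, integral_const_mul] at m2
  have p3 : 0 ≤ ∫ x, N x * ‖Qe 𝔤 C σ ε ψ x‖ ^ 2 :=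
    integral_nonneg fun x => mul_nonneg (N0 x) (sq_nonneg _)
  have p4 : 0 ≤ ∫ x, N x * (1 / ‖x‖ ^ 2) * ‖ψ x‖ ^ 2 :=
    integral_nonneg fun x => mul_nonneg (mul_nonneg (N0 x) (by positivity)) (sq_nonneg _)
  simp only [← mul_assoc] at m2 p4 key ⊢
  nlinarith [mul_nonneg hc.le p4, mul_nonneg A0.le p3, mul_nonneg (sq_nonneg A) p3]

theorem e2 {κ : ℝ} (hκ : 1 ≤ κ) : ∃ B θ₀ : ℝ, 0 < θ₀ ∧ ∀ θ, 0 < θ → θ ≤ θ₀ → ∃ R₀ : ℝ,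
    ∀ R, R₀ ≤ R → ∀ (χ : X E → ℝ) (Ω : Set (X E)), D.Cut κ θ R χ Ω →
      (∀ x ∈ Ω, ‖fderiv ℝ (Γ.avg fun x => D.wtX x * χ x) x‖ ≤
        1 / ‖x‖ * Γ.avg (fun x => D.wtX x * χ x) x) →
      ∀ ε k : ℝ, 0 ≤ ε → ε ≤ 1 → ∀ (𝒱 : Wts) (ψ : X E → F), Cls 𝔤 C σ.G 𝒱 ψ →
        (ε = 0 ∨ (0 ≤ k ∧ (V0, k) ∈ 𝒱)) → tsupport ψ ⊆ Ω →
        D.E2 C σ ε B (fun x => (χ x : ℂ) • ψ x) :=
by
  obtain ⟨θ₀, B₀, t0, b0, hT⟩ := D.wd_tube σ hκ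
  obtain ⟨B, hB, hE⟩ := energy_fw C σ 𝔤
  obtain ⟨c, -, hf⟩ := fw_bounds σ 𝔤
  refine ⟨(B₀ + 2 * B₀ ^ 2) * B + 2 * B₀ ^ 2, θ₀, t0, fun θ h0 h1 => ?_⟩
  obtain ⟨R₀, hR⟩ := hT θ h0 h1
  refine ⟨R₀, fun R hR₀ χ Ω h hg ε k e0 e1 𝒱 ψ hψ hk hs => ?_⟩
  obtain ⟨f1, f2⟩ := hf ε e0 e1
  have hp : ContDiff ℝ ∞ fun x => D.wtX x * χ x := D.contDiff_wtX.mul h.smooth
  have hp0 : ∀ x, 0 ≤ D.wtX x * χ x := fun x => mul_nonneg (D.wt_nonneg _ _) (h.nonneg x)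
  set p := fun x => D.wtX x * χ x with hpdef
  set w := wd 𝔤 σ ε fun _ => 0 with hw
  set φ := fw σ 𝔤 ε with hφ
  have hψ0 : Cls 𝔤 C σ.G ∅ ψ := ⟨hψ.1, hψ.2.1, fun p hp => hp.elim⟩
  have r1 : ∀ x ∈ Ω, 1 ≤ ‖x‖ := fun x hx => h.R1.trans (h.far x hx)
  have S0 : (0 : X E) ∉ tsupport ψ := fun h0 => by
    have := r1 0 (hs h0)
    rw [norm_zero] at this
    linarith
  have key := hE ε k e0 e1 ψ hψ0 (hk.imp id fun hk => ⟨mul_nonneg e0 hk.1, hψ.2.2 _ hk.2⟩) Ω h.isOpen hs r1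
    (Γ.avg p) (Γ.contDiff_avg hp) (Γ.avg_nonneg hp0) hg
  have hl := dens_local C σ 𝔤 ε 0
  obtain ⟨⟨c1, c2, c3, -⟩, hz⟩ := dens_cont C σ 𝔤 ε 0 hψ.1
  have hd := fun k x => Γ.densities C σ ε 0 (f := fun _ => 0) contDiff_const (fun k v => by simp) hψ0 k x
  have hwi : ∀ k x, ‖w (Γ.ax k x)‖ = ‖w x‖ := fun k x =>
    Γ.norm_wd_ax σ ε (f := fun _ => 0) (fun k v => by simp) k x
  have hφi : ∀ k x, φ (Γ.ax k x) = φ x := fun k x => by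
    show (_ + ‖w _‖ ^ 2) / _ = (_ + ‖w _‖ ^ 2) / _
    rw [hwi, (Γ.ax k).norm_map]
  have cw : Continuous w := (contDiff_wd 𝔤 σ ε contDiff_const).continuous
  obtain ⟨d1, s1, i1⟩ := cont_mul_dens f1.continuousOn c3 hψ.1.2 S0 fun x hx => (hz x hx).2.2.1
  obtain ⟨d2, s2, i2⟩ := cont_mul_dens (a := fun x => φ x * ‖w x‖ ^ 2)
    (f1.continuousOn.mul (cw.norm.pow 2).continuousOn) c1 hψ.1.2 S0 fun x hx => (hz x hx).1
  have s3 : HasCompactSupport fun x => ‖Qe 𝔤 C σ ε ψ x‖ ^ 2 :=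
    HasCompactSupport.intro hψ.1.2 fun x hx => (hz x hx).2.1
  obtain ⟨d4, s4, i4⟩ := cont_mul_dens (a := fun x : X E => 1 / ‖x‖ ^ 2)
    (continuousOn_const.div (continuous_norm.pow 2).continuousOn fun x hx =>
      pow_ne_zero 2 (norm_ne_zero_iff.mpr hx)) c1 hψ.1.2 S0 fun x hx => (hz x hx).1
  have u1 := Γ.integral_avg hp.continuous i1 s1 fun k x => by rw [hφi, (hd k x).2.2.1]
  have u2 := Γ.integral_avg hp.continuous i2 s2 fun k x => by rw [hφi, hwi, (hd k x).1]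
  have u3 := Γ.integral_avg hp.continuous (c2.integrable_of_hasCompactSupport s3) s3
    fun k x => by rw [Qe, (hd k x).2.1]
  have u4 := Γ.integral_avg hp.continuous i4 s4 fun k x => by rw [(hd k x).1, (Γ.ax k).norm_map]
  rw [← u1, ← u2, ← u3, ← u4] at key
  have j1 : Integrable fun x => p x * (φ x * gsq ψ x) :=
    (hp.continuous.mul d1).integrable_of_hasCompactSupport s1.mul_left
  have j2 : Integrable fun x => p x * (φ x * ‖w x‖ ^ 2 * ‖ψ x‖ ^ 2) :=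
    (hp.continuous.mul d2).integrable_of_hasCompactSupport s2.mul_left
  have j4 : Integrable fun x => p x * (1 / ‖x‖ ^ 2 * ‖ψ x‖ ^ 2) :=
    (hp.continuous.mul d4).integrable_of_hasCompactSupport s4.mul_left
  have g0 : ∀ x, 0 ≤ gsq ψ x := fun x => Finset.sum_nonneg fun _ _ => sq_nonneg _
  have φ0 : ∀ x, 0 ≤ φ x := fun x => by
    show 0 ≤ (‖x‖ + ‖w x‖ ^ 2) / ‖x‖ ^ 4
    positivity
  have e0' : D.PI (fun x => ‖D.yc x‖ ^ 2 / ‖x‖ ^ 2 * gsq (fun x => (χ x : ℂ) • ψ x) x +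
      ‖D.yc x‖ ^ 4 * ‖(χ x : ℂ) • ψ x‖ ^ 2) =
      ∫ x, p x * (‖D.yc x‖ ^ 2 / ‖x‖ ^ 2 * gsq ψ x + ‖D.yc x‖ ^ 4 * ‖ψ x‖ ^ 2) :=
    integral_congr_ae (Eventually.of_forall (h.local hs
      (fun u x => ‖D.yc x‖ ^ 2 / ‖x‖ ^ 2 * gsq u x + ‖D.yc x‖ ^ 4 * ‖u x‖ ^ 2)
      (fun u v x h => by simp only [(hl.1 u v x h).1, (hl.1 u v x h).2.2.1])
      fun x => by simp [(hl.2 x).2.1]))
  have e3 : D.PI (fun x => ‖Qe 𝔤 C σ ε (fun x => (χ x : ℂ) • ψ x) x‖ ^ 2) =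
      ∫ x, p x * ‖Qe 𝔤 C σ ε ψ x‖ ^ 2 :=
    integral_congr_ae (Eventually.of_forall (h.local hs (fun u x => ‖Qe 𝔤 C σ ε u x‖ ^ 2)
      (fun u v x h => (hl.1 u v x h).2.1) fun x => (hl.2 x).1))
  have e4 : D.PI (fun x => 1 / ‖x‖ ^ 2 * ‖(χ x : ℂ) • ψ x‖ ^ 2) =
      ∫ x, p x * (1 / ‖x‖ ^ 2 * ‖ψ x‖ ^ 2) :=
    integral_congr_ae (Eventually.of_forall (h.local hs (fun u x => 1 / ‖x‖ ^ 2 * ‖u x‖ ^ 2)
      (fun u v x h => by simp only [(hl.1 u v x h).1]) fun x => by simp))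
  have j : Integrable fun x => B₀ * (p x * (φ x * gsq ψ x)) +
      2 * B₀ ^ 2 * (p x * (φ x * ‖w x‖ ^ 2 * ‖ψ x‖ ^ 2)) := (j1.const_mul _).add (j2.const_mul _)
  have m : ∫ x, p x * (‖D.yc x‖ ^ 2 / ‖x‖ ^ 2 * gsq ψ x + ‖D.yc x‖ ^ 4 * ‖ψ x‖ ^ 2) ≤
      ∫ x, (B₀ * (p x * (φ x * gsq ψ x)) + 2 * B₀ ^ 2 * (p x * (φ x * ‖w x‖ ^ 2 * ‖ψ x‖ ^ 2))) +
        2 * B₀ ^ 2 * (p x * (1 / ‖x‖ ^ 2 * ‖ψ x‖ ^ 2)) := by
    refine integral_mono_of_nonneg (Eventually.of_forall fun x => mul_nonneg (hp0 x) ?_)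
      (j.add (j4.const_mul _)) (Eventually.of_forall fun x => ?_)
    · have := g0 x
      positivity
    by_cases hx : x ∈ tsupport ψ
    swap
    · simp only [(hz x hx).1, (hz x hx).2.2.1]
      simp
    by_cases px : p x = 0
    · simp [px]
    obtain ⟨a1, a2, a3⟩ := h.good (hs hx) px
    have x1 := r1 x (hs hx)
    have rp : 0 < ‖x‖ := by linarith
    have a4 : ‖x‖ ^ 2 * ‖D.yc x‖ ^ 2 ≤ B₀ * (‖w x‖ ^ 2 + 1) := hR ε e0 e1 x a1 (hR₀.trans a2) a3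
    have φx : φ x = (‖x‖ + ‖w x‖ ^ 2) / ‖x‖ ^ 4 := rfl
    have y1 : ‖D.yc x‖ ^ 2 / ‖x‖ ^ 2 ≤ B₀ * φ x := by
      rw [φx, ← mul_div_assoc, div_le_div_iff₀ (by positivity) (by positivity)]
      have : B₀ * (‖w x‖ ^ 2 + 1) ≤ B₀ * (‖x‖ + ‖w x‖ ^ 2) := mul_le_mul_of_nonneg_left (by linarith) b0.le
      nlinarith [mul_le_mul_of_nonneg_right (a4.trans this) (sq_nonneg ‖x‖)]
    have y2 : ‖D.yc x‖ ^ 4 ≤ 2 * B₀ ^ 2 * (φ x * ‖w x‖ ^ 2) + 2 * B₀ ^ 2 * (1 / ‖x‖ ^ 2) := by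
      have e : 2 * B₀ ^ 2 * (φ x * ‖w x‖ ^ 2) + 2 * B₀ ^ 2 * (1 / ‖x‖ ^ 2) =
          2 * B₀ ^ 2 * ((‖x‖ + ‖w x‖ ^ 2) * ‖w x‖ ^ 2 + ‖x‖ ^ 2) / ‖x‖ ^ 4 := by
        rw [φx]
        field_simp
      rw [e, le_div_iff₀ (by positivity)]
      have a5 := pow_le_pow_left₀ (by positivity) a4 2
      have a6 : (‖w x‖ ^ 2 + 1) ^ 2 ≤ 2 * ((‖x‖ + ‖w x‖ ^ 2) * ‖w x‖ ^ 2 + ‖x‖ ^ 2) := by
        nlinarith [sq_nonneg (‖w x‖ ^ 2 - 1), mul_nonneg rp.le (sq_nonneg ‖w x‖), one_le_pow₀ (n := 2) x1]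
      nlinarith [mul_le_mul_of_nonneg_left a6 (sq_nonneg B₀)]
    have y3 := mul_le_mul_of_nonneg_left y1 (mul_nonneg (hp0 x) (g0 x))
    have y4 := mul_le_mul_of_nonneg_left y2 (mul_nonneg (hp0 x) (sq_nonneg ‖ψ x‖))
    simp only [hpdef] at y3 y4 ⊢
    linarith
  rw [integral_add j (j4.const_mul _), integral_add (j1.const_mul _) (j2.const_mul _),
    integral_const_mul, integral_const_mul, integral_const_mul] at m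
  have p1 : 0 ≤ ∫ x, p x * (φ x * gsq ψ x) :=
    integral_nonneg fun x => mul_nonneg (hp0 x) (mul_nonneg (φ0 x) (g0 x))
  have p2 : 0 ≤ ∫ x, p x * (φ x * ‖w x‖ ^ 2 * ‖ψ x‖ ^ 2) :=
    integral_nonneg fun x => mul_nonneg (hp0 x) (mul_nonneg (mul_nonneg (φ0 x) (sq_nonneg _)) (sq_nonneg _))
  have p3 : 0 ≤ ∫ x, p x * ‖Qe 𝔤 C σ ε ψ x‖ ^ 2 :=
    integral_nonneg fun x => mul_nonneg (hp0 x) (sq_nonneg _)
  unfold E2
  rw [e0', e3, e4]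
  have k2 := mul_le_mul_of_nonneg_left key (by positivity : 0 ≤ B₀ + 2 * B₀ ^ 2)
  nlinarith [mul_nonneg b0.le p2, mul_nonneg (sq_nonneg B₀) p1, mul_nonneg (sq_nonneg B₀) p3]


end Levi

end Crest.Agent.R330

end
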